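import Mathlib
import Crest.Prelude.Def_Hochschild

/-! The bar complex on lists: differential, chain map and homotopy attached to a tensor. -/

set_option autoImplicit false

namespace Crest.Agent.H8.KR

/-- Sums over lists. -/
def ls {α V : Type*} [AddCommMonoid V] (ω : List α) (f : α → V) : V := (ω.map f).sum

section ls
variable {α V W : Type*} [AddCommGroup V] [AddCommGroup W]

@[simp] theorem ls_nil (f : α → V) : ls [] f = 0 := rfl

@[simp] theorem ls_cons (p : α) (ω : List α) (f : α → V) : ls (p :: ω) f = f p + ls ω f := by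
  simp [ls]

theorem ls_append (ω ω' : List α) (f : α → V) : ls (ω ++ ω') f = ls ω f + ls ω' f := by
  simp [ls]

theorem ls_map {β : Type*} (ω : List β) (g : β → α) (f : α → V) :
    ls (ω.map g) f = ls ω fun p => f (g p) := by simp [ls, Function.comp_def]

theorem map_ls {F : Type*} [FunLike F V W] [AddMonoidHomClass F V W] (φ : F) (ω : List α)
    (f : α → V) : φ (ls ω f) = ls ω fun p => φ (f p) := by
  induction ω with
  | nil => simp
  | cons p ω ih => simp [ih]

theorem ls_add (ω : List α) (f g : α → V) : (ls ω fun p => f p + g p) = ls ω f + ls ω g := by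
  induction ω with
  | nil => simp
  | cons p ω ih => simp only [ls_cons, ih]; abel

theorem ls_sub (ω : List α) (f g : α → V) : (ls ω fun p => f p - g p) = ls ω f - ls ω g := by
  induction ω with
  | nil => simp
  | cons p ω ih => simp only [ls_cons, ih]; abel

@[simp] theorem ls_zero (ω : List α) : (ls ω fun _ => (0 : V)) = 0 := by simp [ls]

theorem ls_apply {β : Type*} (ω : List α) (f : α → β → V) (x : β) :
    ls ω f x = ls ω fun p => f p x := by
  induction ω with
  | nil => simp
  | cons p ω ih => simp [ih]

theorem ls_lin_apply {R : Type*} [Ring R] [Module R V] [Module R W] (ω : List α)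
    (f : α → V →ₗ[R] W) (x : V) : ls ω f x = ls ω fun p => f p x := by
  induction ω with
  | nil => simp
  | cons p ω ih => simp [ih]

theorem ls_smul {R : Type*} [Monoid R] [DistribMulAction R V] (c : R) (ω : List α) (f : α → V) :
    (ls ω fun p => c • f p) = c • ls ω f := by
  induction ω with
  | nil => simp
  | cons p ω ih => simp [ih]

theorem ls_mul_left {A : Type*} [Ring A] (c : A) (ω : List α) (f : α → A) :
    (ls ω fun p => c * f p) = c * ls ω f := ls_smul c ω f

theorem ls_mul_right {A : Type*} [Ring A] (c : A) (ω : List α) (f : α → A) :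
    (ls ω fun p => f p * c) = ls ω f * c := by
  induction ω with
  | nil => simp
  | cons p ω ih => simp [ih, add_mul]

theorem norm_ls_le {E : Type*} [SeminormedAddCommGroup E] (ω : List α) (f : α → E) (g : α → ℝ)
    (h : ∀ p, ‖f p‖ ≤ g p) : ‖ls ω f‖ ≤ ls ω g := by
  induction ω with
  | nil => simp
  | cons p ω ih => rw [ls_cons, ls_cons]; exact norm_add_le_of_le (h p) ih

theorem lin_ls [Module ℂ V] [Module ℂ W] (ω : List α) {f : α → V → W}
    (h : ∀ p, IsLinearMap ℂ (f p)) : IsLinearMap ℂ fun x => ls ω fun p => f p x :=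
  ⟨fun x y => by simp only [(h _).map_add, ls_add], fun c x => by
    simp only [(h _).map_smul, ls_smul]⟩

theorem lin_sub [Module ℂ V] [Module ℂ W] {f g : V → W} (h : IsLinearMap ℂ f)
    (h' : IsLinearMap ℂ g) : IsLinearMap ℂ fun x => f x - g x :=
  ⟨fun x y => by simp only [h.map_add, h'.map_add]; abel, fun c x => by
    simp only [h.map_smul, h'.map_smul, smul_sub]⟩

theorem lin_add [Module ℂ V] [Module ℂ W] {f g : V → W} (h : IsLinearMap ℂ f)
    (h' : IsLinearMap ℂ g) : IsLinearMap ℂ fun x => f x + g x :=
  ⟨fun x y => by simp only [h.map_add, h'.map_add]; abel, fun c x => by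
    simp only [h.map_smul, h'.map_smul, smul_add]⟩

theorem lin_comp {U : Type*} [AddCommGroup U] [Module ℂ U] [Module ℂ V] [Module ℂ W] {f : V → W}
    {g : U → V} (h : IsLinearMap ℂ f) (h' : IsLinearMap ℂ g) : IsLinearMap ℂ fun x => f (g x) :=
  ⟨fun x y => by simp only [h.map_add, h'.map_add], fun c x => by
    simp only [h.map_smul, h'.map_smul]⟩

theorem lin_zero [Module ℂ V] [Module ℂ W] : IsLinearMap ℂ fun _ : V => (0 : W) :=
  ⟨by simp, by simp⟩

end ls

section alg
variable {A : Type*} [Ring A]

/-- Fixing the first argument. -/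
def cons (a : A) : (List A → A) →ₗ[A] (List A → A) := LinearMap.funLeft A A (List.cons a)

theorem cons_apply (a : A) (G : List A → A) (t : List A) : cons a G t = G (a :: t) := rfl

/-- The differential. -/
def dl : A → List A → (List A → A) →ₗ[A] A
  | _, [] => 0
  | a, b :: l => LinearMap.proj (a * b :: l) - (dl b l).comp (cons a)

/-- The chain map attached to a tensor. -/
def ph (ω : List (A × A)) : A → List A → (List A → A) →ₗ[A] A
  | a, [] => LinearMap.proj [a]
  | a, b :: l => ls ω fun p => (ph ω (p.2 * b) l).comp (cons (a * p.1))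

/-- The homotopy attached to a tensor. -/
def ht (ω : List (A × A)) : A → List A → (List A → A) →ₗ[A] A
  | _, [] => 0
  | a, b :: l => ls ω fun p => LinearMap.proj (a * p.1 :: p.2 :: b :: l) -
      (ht ω (p.2 * b) l).comp (cons (a * p.1))

/-- From operators to cochains. -/
def un (f : A → List A → (List A → A) →ₗ[A] A) (G : List A → A) : List A → A
  | [] => 0
  | a :: l => f a l G

variable {ω : List (A × A)} {G G' : List A → A}

@[simp] theorem un_nil (f : A → List A → (List A → A) →ₗ[A] A) : un f G [] = 0 := rfl

@[simp] theorem un_cons (f : A → List A → (List A → A) →ₗ[A] A) (a : A) (l : List A) :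
    un f G (a :: l) = f a l G := rfl

@[simp] theorem dl_nil (a : A) : dl a [] G = 0 := rfl

theorem dl_cons (a b : A) (l : List A) : dl a (b :: l) G = G (a * b :: l) - dl b l (cons a G) := rfl

@[simp] theorem ph_nil (a : A) : ph ω a [] G = G [a] := rfl

theorem ph_cons (a b : A) (l : List A) :
    ph ω a (b :: l) G = ls ω fun p => ph ω (p.2 * b) l (cons (a * p.1) G) := ls_lin_apply _ _ _

@[simp] theorem ht_nil (a : A) : ht ω a [] G = 0 := rfl

theorem ht_cons (a b : A) (l : List A) : ht ω a (b :: l) G =
    ls ω fun p => G (a * p.1 :: p.2 :: b :: l) - ht ω (p.2 * b) l (cons (a * p.1) G) :=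
  ls_lin_apply _ _ _

theorem dl_congr (h : ∀ b t, G (b :: t) = G' (b :: t)) (a : A) (l : List A) :
    dl a l G = dl a l G' := by
  cases l with
  | nil => rfl
  | cons b l => rw [dl_cons, dl_cons, h, show cons a G = cons a G' from funext (h a)]

theorem ht_congr (h : ∀ b t, G (b :: t) = G' (b :: t)) (a : A) (l : List A) :
    ht ω a l G = ht ω a l G' := by
  cases l with
  | nil => rfl
  | cons b l =>
    have : ∀ a, cons a G = cons a G' := fun a => funext (h a)
    simp only [ht_cons, h, this]

/-- Multiplying the first argument. -/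
def mu (a : A) (G : List A → A) : List A → A
  | [] => 0
  | b :: l => G (a * b :: l)

theorem dl_mu (a b : A) (l : List A) : dl b l (mu a G) = dl (a * b) l G := by
  cases l with
  | nil => rfl
  | cons c l => rw [dl_cons, dl_cons, mul_assoc]; rfl

theorem ht_mu (a b : A) (l : List A) : ht ω b l (mu a G) = ht ω (a * b) l G := by
  cases l with
  | nil => rfl
  | cons c l => simp only [ht_cons, mul_assoc]; rfl

theorem cons_dl (a b : A) (t : List A) :
    cons a (un dl G) (b :: t) = (mu a G - un dl (cons a G)) (b :: t) := rfl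

theorem dl_dl (a : A) (l : List A) : dl a l (un dl G) = 0 := by
  induction l generalizing a G with
  | nil => rfl
  | cons b l ih => rw [dl_cons, dl_congr (cons_dl a), map_sub, ih, dl_mu]; simp

/-- Left module property. -/
def Left (G : List A → A) : Prop := ∀ a b l, G (a * b :: l) = a * G (b :: l)

/-- Right module property. -/
def Right (G : List A → A) : Prop := ∀ a l b c, G (a :: (l ++ [b * c])) = G (a :: (l ++ [b])) * c

theorem Left.cons_eq (h : Left G) (a b : A) : cons (a * b) G = a • cons b G := funext (h a b)

theorem Left.dl (h : Left G) : Left (un dl G) := fun a b l => by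
  cases l with
  | nil => simp
  | cons c l => simp only [un_cons, dl_cons, mul_assoc, h a, h.cons_eq, map_smul, smul_eq_mul,
      mul_sub]

theorem Left.ht (h : Left G) : Left (un (ht ω) G) := fun a b l => by
  cases l with
  | nil => simp
  | cons c l => simp only [un_cons, ht_cons, mul_assoc, h a, h.cons_eq a, map_smul, smul_eq_mul,
      ← mul_sub, ls_mul_left]

theorem dl_right (h : ∀ l b c, G (l ++ [b * c]) = G (l ++ [b]) * c) (a : A) (l : List A) (b c : A) :
    dl a (l ++ [b * c]) G = dl a (l ++ [b]) G * c := by
  induction l generalizing a G with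
  | nil =>
    have := h [] (a * b) c
    simp only [List.nil_append, dl_cons, dl_nil, sub_zero, ← mul_assoc] at this ⊢
    exact this
  | cons d l ih =>
    rw [List.cons_append, List.cons_append, dl_cons, dl_cons, sub_mul,
      ih (fun l b c => h (a :: l) b c), ← List.cons_append, h]; rfl

theorem Right.dl (h : Right G) (h0 : ∀ a, G [a] = 0) : Right (un dl G) := fun a l b c =>
  dl_right (fun l b c => by
    cases l with
    | nil => simp [h0]
    | cons d l => exact h d l b c) a l b c

theorem Right.ht (h : Right G) : Right (un (ht ω) G) := fun a l b c => by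
  simp only [un_cons]
  induction l generalizing a G with
  | nil =>
    have := fun x y => h x [y] b c
    simp only [List.nil_append, ht_cons, ht_nil, sub_zero, List.cons_append] at this ⊢
    simp only [this, ls_mul_right]
  | cons d l ih =>
    have h1 := fun x y => h x (y :: d :: l) b c
    have h2 := fun x y => ih (G := cons x G) (fun a l b c => h x (a :: l) b c) y
    simp only [List.cons_append, ht_cons] at h1 ⊢
    simp only [h1, h2, ← sub_mul, ls_mul_right]

theorem contraction (hG : ∀ a l, dl a l G = 0) (a b : A) (l : List A) :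
    dl a (b :: l) (un (fun a l => ls ω fun p => LinearMap.proj (a * p.1 :: p.2 :: l)) G) =
      (ls ω fun p => G (a * p.1 * p.2 :: b :: l)) + ((ls ω fun p => G (a * b * p.1 :: p.2 :: l)) -
        ls ω fun p => G (a * p.1 :: p.2 * b :: l)) := by
  have h1 : cons a (un (fun a l => ls ω fun p => LinearMap.proj (a * p.1 :: p.2 :: l)) G) =
      ls ω fun p => cons p.2 (cons (a * p.1) G) := by
    funext t
    rw [ls_apply]
    exact ls_lin_apply _ _ _
  have h2 : ∀ x y, dl b l (cons y (cons x G)) = G (x :: y * b :: l) - G (x * y :: b :: l) := by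
    intro x y
    have := hG x (y :: b :: l)
    rw [dl_cons, dl_cons, cons_apply] at this
    rw [eq_sub_iff_add_eq, ← sub_eq_zero, ← this]; abel
  rw [dl_cons, h1, map_ls, un_cons, ls_lin_apply]
  simp only [h2, ls_sub, LinearMap.proj_apply]
  abel

variable [Algebra ℂ A]

/-- Multilinearity. -/
def Lin (G : List A → A) : Prop := ∀ l₁ l₂, IsLinearMap ℂ fun a => G (l₁ ++ a :: l₂)

theorem Lin.cons (h : Lin G) (a : A) : Lin (cons a G) := fun l₁ l₂ => h (a :: l₁) l₂

theorem Lin.first (h : Lin G) : IsLinearMap ℂ fun a => KR.cons a G :=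
  ⟨fun x y => funext fun t => (h [] t).map_add x y, fun c x => funext fun t => (h [] t).map_smul c x⟩

theorem lin_mul_right (c : A) : IsLinearMap ℂ fun a : A => a * c :=
  ⟨fun _ _ => add_mul _ _ _, fun _ _ => smul_mul_assoc _ _ _⟩

theorem lin_mul_left (c : A) : IsLinearMap ℂ fun a : A => c * a :=
  ⟨fun _ _ => mul_add _ _ _, fun _ _ => mul_smul_comm _ _ _⟩

theorem lin_op (f : (List A → A) →ₗ[A] A) : IsLinearMap ℂ f :=
  ⟨map_add f, fun c x => f.map_smul_of_tower c x⟩

theorem Lin.dl_first (h : Lin G) (l : List A) : IsLinearMap ℂ fun a => dl a l G := by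
  cases l with
  | nil => exact lin_zero
  | cons b l => exact lin_sub (lin_comp (h [] l) (lin_mul_right b) :) (lin_comp (lin_op _) h.first)

theorem Lin.ph_first (h : Lin G) (l : List A) : IsLinearMap ℂ fun a => ph ω a l G := by
  cases l with
  | nil => exact h [] []
  | cons b l =>
    simp only [ph_cons]
    exact lin_ls ω fun p => lin_comp (lin_op _) (lin_comp h.first (lin_mul_right p.1))

theorem Lin.ht_first (h : Lin G) (l : List A) : IsLinearMap ℂ fun a => ht ω a l G := by
  cases l with
  | nil => exact lin_zero
  | cons b l =>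
    simp only [ht_cons]
    exact lin_ls ω fun p => lin_sub (lin_comp (h [] (p.2 :: b :: l)) (lin_mul_right p.1) :)
      (lin_comp (lin_op _) (lin_comp h.first (lin_mul_right p.1)))

theorem Lin.dl (h : Lin G) : Lin (un dl G) := fun l₁ l₂ => by
  cases l₁ with
  | nil => exact h.dl_first l₂
  | cons a l₁ =>
    simp only [List.cons_append, un_cons]
    induction l₁ generalizing a G with
    | nil => exact lin_sub (lin_comp (h [] l₂) (lin_mul_left a) :) ((h.cons a).dl_first l₂)
    | cons b l₁ ih => exact lin_sub (h (a * b :: l₁) l₂) (ih (h.cons a) b)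

theorem Lin.ht (h : Lin G) : Lin (un (ht ω) G) := fun l₁ l₂ => by
  cases l₁ with
  | nil => exact h.ht_first l₂
  | cons a l₁ =>
    simp only [List.cons_append, un_cons]
    induction l₁ generalizing a G with
    | nil =>
      simp only [List.nil_append, ht_cons]
      exact lin_ls ω fun p => lin_sub (h [a * p.1, p.2] l₂)
        (lin_comp ((h.cons _).ht_first l₂) (lin_mul_left p.2))
    | cons b l₁ ih =>
      simp only [List.cons_append, ht_cons]
      exact lin_ls ω fun p => lin_sub (h (a * p.1 :: p.2 :: b :: l₁) l₂) (ih (h.cons _) _)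

theorem lin_ls_one {V : Type*} [AddCommGroup V] [Module ℂ V] {f : A → V} (hf : IsLinearMap ℂ f)
    (a b : A) : (ls ω fun p => f (a * p.1 * (p.2 * b))) = f (a * (ls ω fun p => p.1 * p.2) * b) := by
  rw [← ls_mul_left, ← ls_mul_right]
  refine Eq.trans ?_ (map_ls (IsLinearMap.mk' f hf) ω _).symm
  simp only [IsLinearMap.mk'_apply, mul_assoc]

theorem homotopy (hω : (ls ω fun p => p.1 * p.2) = 1) (h : Lin G) (a : A) (l : List A) :
    ht ω a l (un dl G) + dl a l (un (ht ω) G) = G (a :: l) - ph ω a l G := by
  induction l generalizing a G with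
  | nil => simp
  | cons b l ih =>
    have h1 : dl b l (cons a (un (ht ω) G)) = ls ω fun p =>
        dl b l (cons p.2 (cons (a * p.1) G)) - dl (p.2 * b) l (un (ht ω) (cons (a * p.1) G)) := by
      rw [dl_congr (G' := ls ω fun p => cons p.2 (cons (a * p.1) G) -
        mu p.2 (un (ht ω) (cons (a * p.1) G))) (fun c t => by
          rw [ls_apply, cons_apply, un_cons, ht_cons]; rfl), map_ls]
      simp only [map_sub, dl_mu]
    have h2 := lin_ls_one (ω := ω) (h.ht_first (ω := ω) l) a b
    have h3 := lin_ls_one (ω := ω) (h [] (b :: l)) a 1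
    rw [hω, mul_one] at h2 h3
    simp only [mul_one, List.nil_append] at h3
    have h4 := fun x y => eq_sub_of_add_eq (ih (h.cons x) y)
    rw [dl_cons, h1, ht_cons, ph_cons]
    simp only [un_cons, dl_cons, ht_congr (cons_dl _), map_sub, ht_mu, h4, cons_apply, ls_sub, h2,
      h3]
    abel

end alg

end Crest.Agent.H8.KR
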