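import Crest.Agent.H8.KR.A1

/-! Norm estimates on the bar complex and the link with Hochschild cochains. -/

set_option autoImplicit false
set_option linter.unusedSectionVars false

open scoped TensorProduct

namespace Crest.Agent.H8.KR

section bd
variable {A : Type*} [NormedRing A] {ω : List (A × A)} {G : List A → A} {c : ℕ → ℝ}

/-- Product of norms. -/
def np (l : List A) : ℝ := (l.map fun a => ‖a‖).prod

@[simp] theorem np_nil : np ([] : List A) = 1 := rfl

@[simp] theorem np_cons (a : A) (l : List A) : np (a :: l) = ‖a‖ * np l := by simp [np]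

@[simp] theorem np_append (l l' : List A) : np (l ++ l') = np l * np l' := by simp [np]

theorem np_nonneg (l : List A) : 0 ≤ np l := by
  induction l with
  | nil => simp
  | cons a l ih => rw [np_cons]; positivity

/-- Boundedness. -/
def Bd (c : ℕ → ℝ) (G : List A → A) : Prop :=
  (∀ k, 0 ≤ c k) ∧ ∀ l, ‖G l‖ ≤ c l.length * np l

/-- The size of a representation of a tensor. -/
def nrm (ω : List (A × A)) : ℝ := ls ω fun p => ‖p.1‖ * ‖p.2‖

theorem nrm_nonneg (ω : List (A × A)) : 0 ≤ nrm ω := by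
  induction ω with
  | nil => simp [nrm]
  | cons p ω ih => unfold nrm at *; rw [ls_cons]; positivity

theorem Bd.cons (h : Bd c G) (a : A) : Bd (fun k => c (k + 1) * ‖a‖) (cons a G) :=
  ⟨fun k => mul_nonneg (h.1 _) (norm_nonneg _), fun l => by
    have := h.2 (a :: l)
    rwa [np_cons, ← mul_assoc] at this⟩

theorem Bd.mono (h : Bd c G) {c' : ℕ → ℝ} (hc : ∀ k, c k ≤ c' k) : Bd c' G :=
  ⟨fun k => (h.1 k).trans (hc k), fun l =>
    (h.2 l).trans (mul_le_mul_of_nonneg_right (hc _) (np_nonneg _))⟩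

theorem norm_ls_bil (ω : List (A × A)) (f : A × A → A) {M : ℝ}
    (h : ∀ p, ‖f p‖ ≤ M * (‖p.1‖ * ‖p.2‖)) : ‖ls ω f‖ ≤ M * nrm ω :=
  (norm_ls_le ω f _ h).trans_eq (ls_mul_left M ω _)

theorem Bd.ph (h : Bd c G) {K : ℝ} (hK : nrm ω ≤ K) (a : A) (l : List A) :
    ‖ph ω a l G‖ ≤ K ^ l.length * c (l.length + 1) * (‖a‖ * np l) := by
  have hK0 := (nrm_nonneg ω).trans hK
  induction l generalizing a G c with
  | nil => simpa using h.2 [a]
  | cons b l ih =>
    have h1 := h.1 (l.length + 1 + 1)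
    have h2 := np_nonneg l
    rw [ph_cons]
    refine (norm_ls_bil ω _ (M := K ^ l.length * c (l.length + 1 + 1) * (‖a‖ * (‖b‖ * np l)))
      fun p => (ih (h.cons _) _).trans ?_).trans ?_
    · calc _ ≤ K ^ l.length * (c (l.length + 1 + 1) * (‖a‖ * ‖p.1‖)) * (‖p.2‖ * ‖b‖ * np l) := by
            gcongr <;> exact norm_mul_le _ _
        _ = _ := by ring
    · calc _ ≤ K ^ l.length * c (l.length + 1 + 1) * (‖a‖ * (‖b‖ * np l)) * K := by gcongr
        _ = _ := by simp only [List.length_cons, np_cons]; ring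

theorem Bd.ht (h : Bd c G) {K : ℝ} (hK : nrm ω ≤ K) (hK1 : 1 ≤ K) (a : A) (l : List A) :
    ‖ht ω a l G‖ ≤ l.length * K ^ l.length * c (l.length + 2) * (‖a‖ * np l) := by
  induction l generalizing a G c with
  | nil => simp
  | cons b l ih =>
    have h1 := h.1 (l.length + 1 + 2)
    have h2 := np_nonneg l
    have h3 : 1 ≤ K ^ l.length := one_le_pow₀ hK1
    rw [ht_cons]
    refine (norm_ls_bil ω _
      (M := (l.length + 1) * K ^ l.length * c (l.length + 1 + 2) * (‖a‖ * (‖b‖ * np l)))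
      fun p => (norm_sub_le_of_le (h.2 _) (ih (h.cons _) _)).trans ?_).trans ?_
    · calc _ ≤ K ^ l.length * c (l.length + 1 + 2) * (‖a‖ * ‖p.1‖ * (‖p.2‖ * (‖b‖ * np l))) +
          l.length * K ^ l.length * (c (l.length + 1 + 2) * (‖a‖ * ‖p.1‖)) *
            (‖p.2‖ * ‖b‖ * np l) := by
            refine add_le_add ?_ (by gcongr <;> exact norm_mul_le _ _)
            simp only [np_cons, List.length_cons]
            refine mul_le_mul (le_mul_of_one_le_left h1 h3) ?_ (by positivity) (by positivity)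
            gcongr; exact norm_mul_le _ _
        _ = _ := by ring
    · calc _ ≤ (l.length + 1) * K ^ l.length * c (l.length + 1 + 2) * (‖a‖ * (‖b‖ * np l)) * K := by
            gcongr
        _ = _ := by simp only [List.length_cons, np_cons]; push_cast; ring

variable [NormedAlgebra ℂ A]

/-- The tensor represented by a list. -/
noncomputable def tn (ω : List (A × A)) : A ⊗[ℂ] A := ls ω fun p => p.1 ⊗ₜ p.2

/-- Upper bounds for the projective norm. -/
def PN (t : A ⊗[ℂ] A) (r : ℝ) : Prop := ∃ ω, tn ω = t ∧ nrm ω ≤ r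

theorem PN.bil {t : A ⊗[ℂ] A} {r : ℝ} (h : PN t r) (β : A ⊗[ℂ] A →ₗ[ℂ] A) {M : ℝ} (hM : 0 ≤ M)
    (hβ : ∀ x y, ‖β (x ⊗ₜ y)‖ ≤ M * (‖x‖ * ‖y‖)) : ‖β t‖ ≤ M * r := by
  obtain ⟨ω, rfl, h⟩ := h
  rw [tn, map_ls]
  exact (norm_ls_bil ω _ fun p => hβ _ _).trans (mul_le_mul_of_nonneg_left h hM)

/-- The commutator of an element with a tensor. -/
noncomputable def cm (s : A) (t : A ⊗[ℂ] A) : A ⊗[ℂ] A :=
  (LinearMap.mulLeft ℂ s).rTensor A t - (LinearMap.mulRight ℂ s).lTensor A t

theorem ph_mod0 (h : Bd c G) (hl : Lin G) {K ε : ℝ} (hK : nrm ω ≤ K) {s : A}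
    (hs : PN (cm s (tn ω)) ε) (a b : A) (l : List A) :
    ‖ph ω (a * s) (b :: l) G - ph ω a (s * b :: l) G‖ ≤
      K ^ l.length * c (l.length + 2) * (‖a‖ * (‖b‖ * np l)) * ε := by
  have hK0 := (nrm_nonneg ω).trans hK
  have h1 := h.1 (l.length + 2)
  have h2 := np_nonneg l
  have a1 : ∀ y, IsLinearMap ℂ fun x => ph ω (y * b) l (cons (a * x) G) := fun y =>
    lin_comp (lin_op _) (lin_comp hl.first (lin_mul_left a))
  have a2 : ∀ x, IsLinearMap ℂ fun y => ph ω (y * b) l (cons (a * x) G) := fun x =>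
    (lin_comp ((hl.cons _).ph_first l) (lin_mul_right b) :)
  let β := TensorProduct.lift (LinearMap.mk₂ ℂ (fun x y => ph ω (y * b) l (cons (a * x) G))
    (fun x x' y => (a1 y).map_add x x') (fun c x y => (a1 y).map_smul c x)
    (fun x y y' => (a2 x).map_add y y') (fun c x y => (a2 x).map_smul c y))
  have h3 : β (cm s (tn ω)) = ph ω (a * s) (b :: l) G - ph ω a (s * b :: l) G := by
    simp [β, cm, tn, map_ls, ph_cons, mul_assoc]
  rw [← h3]
  refine hs.bil β (by positivity) fun x y => ((h.cons _).ph hK _ l).trans ?_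
  calc _ ≤ K ^ l.length * (c (l.length + 2) * (‖a‖ * ‖x‖)) * (‖y‖ * ‖b‖ * np l) := by
        gcongr <;> exact norm_mul_le _ _
    _ = _ := by ring

theorem ph_mod (h : Bd c G) (hl : Lin G) {K ε : ℝ} (hK : nrm ω ≤ K) (hε : 0 ≤ ε) {s : A}
    (hs : PN (cm s (tn ω)) ε) (a₀ a b : A) (l₁ l : List A) :
    ‖ph ω a₀ (l₁ ++ a * s :: b :: l) G - ph ω a₀ (l₁ ++ a :: s * b :: l) G‖ ≤
      K ^ (l₁.length + l.length + 1) * c (l₁.length + l.length + 3) *
        (‖a₀‖ * np l₁ * (‖a‖ * (‖b‖ * np l))) * ε := by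
  have hK0 := (nrm_nonneg ω).trans hK
  have h2 := np_nonneg l
  induction l₁ generalizing a₀ G c with
  | nil =>
    have h1 := h.1 (l.length + 3)
    simp only [List.nil_append, List.length_nil, zero_add, np_nil, mul_one]
    rw [ph_cons, ph_cons, ← ls_sub]
    refine (norm_ls_bil ω _ (M := K ^ l.length * c (l.length + 3) * (‖a₀‖ * (‖a‖ * (‖b‖ * np l))) * ε)
      fun p => ?_).trans ?_
    · rw [← mul_assoc]
      refine (ph_mod0 (h.cons _) (hl.cons _) hK hs _ _ _).trans ?_
      calc _ ≤ K ^ l.length * (c (l.length + 3) * (‖a₀‖ * ‖p.1‖)) * (‖p.2‖ * ‖a‖ * (‖b‖ * np l)) *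
          ε := by gcongr <;> exact norm_mul_le _ _
        _ = _ := by ring
    · calc _ ≤ K ^ l.length * c (l.length + 3) * (‖a₀‖ * (‖a‖ * (‖b‖ * np l))) * ε * K := by gcongr
        _ = _ := by ring
  | cons d l₁ ih =>
    have h1 := h.1 (l₁.length + l.length + 3 + 1)
    have h3 := np_nonneg l₁
    rw [List.cons_append, List.cons_append, ph_cons, ph_cons, ← ls_sub]
    refine (norm_ls_bil ω _ (M := K ^ (l₁.length + l.length + 1) * c (l₁.length + l.length + 3 + 1) *
      (‖a₀‖ * (‖d‖ * np l₁) * (‖a‖ * (‖b‖ * np l))) * ε)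
      fun p => (ih (h.cons _) (hl.cons _) _).trans ?_).trans ?_
    · calc _ ≤ K ^ (l₁.length + l.length + 1) * (c (l₁.length + l.length + 3 + 1) * (‖a₀‖ * ‖p.1‖)) *
          (‖p.2‖ * ‖d‖ * np l₁ * (‖a‖ * (‖b‖ * np l))) * ε := by gcongr <;> exact norm_mul_le _ _
        _ = _ := by ring
    · calc _ ≤ K ^ (l₁.length + l.length + 1) * c (l₁.length + l.length + 3 + 1) *
          (‖a₀‖ * (‖d‖ * np l₁) * (‖a‖ * (‖b‖ * np l))) * ε * K := by gcongr
        _ = _ := by
          rw [List.length_cons, np_cons, show l₁.length + 1 + l.length + 3 =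
            l₁.length + l.length + 3 + 1 by omega]
          ring

end bd

section hoch
open Crest.OpAlg
variable {A : Type*} [Ring A]

theorem dl_ofFn (k : ℕ) : ∀ (G : List A → A) (a₀ b : A) (a : Fin (k + 1) → A),
    dl a₀ (List.ofFn a ++ [b]) G = G (a₀ * a 0 :: (List.ofFn (fun i => a i.succ) ++ [b])) +
      (∑ j : Fin k, ((-1 : ℤ) ^ (j.val + 1)) • G (a₀ :: (List.ofFn (mergeArgs j a) ++ [b]))) +
      ((-1 : ℤ) ^ (k + 1)) • G (a₀ :: (List.ofFn (fun i => a i.castSucc) ++
        [a (Fin.last k) * b])) := by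
  induction k with
  | zero => intro G a₀ b a; simp [dl_cons, cons_apply, sub_eq_add_neg]
  | succ k ih =>
    intro G a₀ b a
    have h1 : List.ofFn (mergeArgs 0 a) =
        a 0 * a (Fin.succ 0) :: List.ofFn fun i : Fin k => a i.succ.succ := by
      rw [List.ofFn_succ]; simp [mergeArgs]
    have h2 : ∀ j : Fin k, List.ofFn (mergeArgs j.succ a) =
        a 0 :: List.ofFn (mergeArgs j fun i => a i.succ) := fun j => by
      rw [List.ofFn_succ]
      simp only [mergeArgs]
      congr 2
      funext i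
      simp [mergeArgs]
    have h3 : List.ofFn (fun i : Fin (k + 1) => a i.castSucc) =
        a 0 :: List.ofFn fun i : Fin k => a i.castSucc.succ := by
      rw [List.ofFn_succ]; simp
    rw [List.ofFn_succ, List.cons_append, dl_cons, ih, Fin.sum_univ_succ, h1, h3]
    simp only [h2, cons_apply, List.cons_append, Fin.val_succ, pow_succ (-1 : ℤ) (_ + 1),
      mul_neg_one, neg_smul, Finset.sum_neg_distrib, Fin.val_zero, zero_add, pow_one, one_smul,
      Fin.succ_last]
    abel

theorem hoch_eq {k : ℕ} {G : List A → A} (hL : Left G) (hR : Right G) (a : Fin (k + 1) → A) :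
    hochschildDiff (fun a : Fin k → A => G (1 :: (List.ofFn a ++ [1]))) a =
      dl 1 (List.ofFn a ++ [1]) G := by
  rw [dl_ofFn, hochschildDiff, ← hL, ← hR]
  simp only [one_mul, mul_one]

/-- The bimodule map attached to a cochain. -/
def ofC {k : ℕ} (f : (Fin k → A) → A) (l : List A) : A :=
  if l.length = k + 2 then l.getD 0 0 * f (fun i => l.getD (i + 1) 0) * l.getD (k + 1) 0 else 0

theorem ofC_ofFn {k : ℕ} (f : (Fin k → A) → A) (a₀ b : A) (a : Fin k → A) :
    ofC f (a₀ :: (List.ofFn a ++ [b])) = a₀ * f a * b := by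
  rw [ofC, if_pos (by simp)]
  congr 2
  · congr 1
    funext i
    simp [List.getElem?_append_left]
  · simp

theorem exists_ofFn {k : ℕ} {l : List A} (h : l.length = k + 2) :
    ∃ (a₀ b : A) (a : Fin k → A), l = a₀ :: (List.ofFn a ++ [b]) := by
  cases l with
  | nil => simp at h
  | cons a₀ l =>
    rcases List.eq_nil_or_concat l with rfl | ⟨l, b, rfl⟩
    · simp at h
    · obtain rfl : l.length = k := by simpa using h
      exact ⟨a₀, b, l.get, by simp⟩

theorem ofC_left {k : ℕ} (f : (Fin k → A) → A) : Left (ofC f) := fun a b l => by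
  simp only [ofC, List.length_cons]
  split_ifs <;> simp [mul_assoc]

theorem ofC_right {k : ℕ} (f : (Fin k → A) → A) : Right (ofC f) := fun a l b c => by
  by_cases h : l.length = k
  · obtain ⟨v, rfl⟩ : ∃ v : Fin k → A, l = List.ofFn v := by
      subst h; exact ⟨l.get, by simp⟩
    rw [ofC_ofFn, ofC_ofFn, mul_assoc _ b]
  · simp [ofC, h]

theorem dl_supp {m : ℕ} {G : List A → A} (h : ∀ l, l.length ≠ m → G l = 0) (a : A) (l : List A)
    (hl : l.length ≠ m) : dl a l G = 0 := by
  induction l generalizing a G m with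
  | nil => rfl
  | cons b l ih =>
    rw [dl_cons, h _ (by simpa using hl), zero_sub, neg_eq_zero]
    cases m with
    | zero => rw [show cons a G = 0 from funext fun t => h _ (by simp), map_zero]
    | succ m => exact ih (m := m) (fun t ht => h _ (by simpa using ht)) _ (by simpa using hl)

theorem ofC_cocycle {k : ℕ} (f : (Fin k → A) → A) (hf : ∀ a, hochschildDiff f a = 0) (a₀ : A)
    (l : List A) : dl a₀ l (ofC f) = 0 := by
  by_cases h : l.length = k + 2
  · obtain ⟨a₁, b, a, h1⟩ := exists_ofFn (k := k + 1) (l := a₀ :: l) (by simpa using h)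
    obtain ⟨-, rfl⟩ := List.cons.inj h1
    have h2 := (ofC_left f).dl a₀ 1 (List.ofFn a ++ [b])
    have h3 := (ofC_right f).dl (fun a => by simp [ofC]) 1 (List.ofFn a) 1 b
    have h4 := hoch_eq (ofC_left f) (ofC_right f) a
    simp only [ofC_ofFn, one_mul, mul_one, un_cons] at h2 h3 h4
    rw [h2, h3, ← h4, hf]; simp
  · exact dl_supp (m := k + 2) (fun l hl => if_neg hl) _ _ h

theorem ofC_lin [Algebra ℂ A] {k : ℕ} (f : MultilinearMap ℂ (fun _ : Fin k => A) A) :
    Lin (ofC f) := fun l₁ l₂ => by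
  by_cases h : l₁.length + l₂.length + 1 = k + 2
  swap
  · have : (fun a => ofC f (l₁ ++ a :: l₂)) = fun _ => 0 := funext fun a => if_neg (by
      simpa [add_assoc] using h)
    rw [this]; exact lin_zero
  have h1 : ∀ (a : A) i, (l₁ ++ a :: l₂).getD i 0 =
      if i = l₁.length then a else (l₁ ++ 0 :: l₂).getD i 0 := fun a i => by
    simp only [List.getD_eq_getElem?_getD, List.getElem?_append]
    split_ifs with h1 h2 h2
    · omega
    · rfl
    · simp [h2]
    · obtain ⟨j, hj⟩ : ∃ j, i - l₁.length = j + 1 := ⟨i - l₁.length - 1, by omega⟩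
      simp [hj]
  have h2 : (fun a => ofC f (l₁ ++ a :: l₂)) = fun a =>
      (if 0 = l₁.length then a else (l₁ ++ 0 :: l₂).getD 0 0) *
      f (fun i => if i + 1 = l₁.length then a else (l₁ ++ 0 :: l₂).getD (i + 1) 0) *
      (if k + 1 = l₁.length then a else (l₁ ++ 0 :: l₂).getD (k + 1) 0) := funext fun a => by
    rw [ofC, if_pos (by simpa [add_assoc] using h), h1 a, h1 a]
    simp only [h1 a]
  rw [h2]
  rcases h3 : l₁.length with _ | j
  · simp only [if_true, Nat.add_one_ne_zero, if_false, mul_assoc]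
    exact lin_mul_right _
  · have h0 : ¬ 0 = j + 1 := by omega
    by_cases h4 : k = j
    · have : ∀ i : Fin k, ¬ (i : ℕ) + 1 = j + 1 := fun i => by have := i.2; omega
      simp only [if_neg h0, if_neg (this _), if_pos (congrArg (· + 1) h4)]
      exact lin_mul_left _
    · have h5 : j < k := by omega
      have : ∀ a : A, (fun i : Fin k => if (i : ℕ) + 1 = j + 1 then a else
          (l₁ ++ 0 :: l₂).getD (i + 1) 0) = Function.update
          (fun i : Fin k => (l₁ ++ 0 :: l₂).getD (i + 1) 0) ⟨j, h5⟩ a := fun a => by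
        funext i; simp [Function.update_apply, Fin.ext_iff]
      have h6 : ¬ k + 1 = j + 1 := by omega
      simp only [if_neg h0, this, if_neg h6]
      exact ⟨fun x y => by rw [f.map_update_add, mul_add, add_mul], fun c x => by
        rw [f.map_update_smul, mul_smul_comm, smul_mul_assoc]⟩

end hoch

section normed
variable {A : Type*} [NormedRing A] [NormedAlgebra ℂ A]

theorem np_ofFn {k : ℕ} (a : Fin k → A) : np (List.ofFn a) = ∏ i, ‖a i‖ := by
  rw [np, List.map_ofFn, List.prod_ofFn]; rfl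

theorem ofC_bd {k : ℕ} (f : ContinuousMultilinearMap ℂ (fun _ : Fin k => A) A) :
    Bd (fun _ => ‖f‖) (ofC f) := ⟨fun _ => norm_nonneg _, fun l => by
  by_cases h : l.length = k + 2
  · obtain ⟨a₀, b, a, rfl⟩ := exists_ofFn h
    rw [ofC_ofFn, np_cons, np_append, np_ofFn, np_cons, np_nil]
    calc _ ≤ ‖a₀‖ * (‖f‖ * ∏ i, ‖a i‖) * ‖b‖ := by
          refine (norm_mul_le _ _).trans (mul_le_mul_of_nonneg_right
            ((norm_mul_le _ _).trans ?_) (norm_nonneg _))
          gcongr; exact f.le_opNorm a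
      _ = _ := by ring
  · rw [ofC, if_neg h, norm_zero]
    exact mul_nonneg (norm_nonneg _) (np_nonneg _)⟩

theorem exists_cochain {G : List A → A} {c : ℕ → ℝ} (hl : Lin G) (hb : Bd c G) (k : ℕ) :
    ∃ g : ContinuousMultilinearMap ℂ (fun _ : Fin k => A) A,
      ∀ a, g a = G (1 :: (List.ofFn a ++ [1])) := by
  have h1 : ∀ [DecidableEq (Fin k)] (a : Fin k → A) (i : Fin k) (x : A),
      1 :: (List.ofFn (Function.update a i x) ++ [1]) =
        (1 :: (List.ofFn a).take i) ++ x :: ((List.ofFn a).drop (i + 1) ++ [1]) := by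
    intro _ a i x
    have : List.ofFn (Function.update a i x) = (List.ofFn a).set i x := by
      apply List.ext_getElem
      · simp
      · intro j h1 h2
        simp [List.getElem_set, Function.update_apply, Fin.ext_iff, eq_comm]
    rw [this, List.set_eq_take_append_cons_drop, if_pos (by simp)]
    simp
  let g : MultilinearMap ℂ (fun _ : Fin k => A) A :=
    { toFun := fun a => G (1 :: (List.ofFn a ++ [1]))
      map_update_add' := fun a i x y => by simp only [h1]; exact (hl _ _).map_add x y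
      map_update_smul' := fun a i c x => by simp only [h1]; exact (hl _ _).map_smul c x }
  refine ⟨g.mkContinuous (c (k + 2) * (‖(1 : A)‖ * ‖(1 : A)‖)) fun a => (hb.2 _).trans_eq ?_,
    fun a => rfl⟩
  simp only [np_cons, np_append, np_ofFn, np_nil, List.length_cons, List.length_append,
    List.length_ofFn, List.length_nil]
  ring

end normed

end Crest.Agent.H8.KR
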