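import Crest.Agent.H8.KR.A2
import Crest.Agent.H1KR.Defs

/-! Weak operator limits of cochains and the contraction attached to an asymptotic mean. -/

set_option autoImplicit false
set_option linter.unusedSectionVars false

open scoped InnerProductSpace
open Filter Topology Crest.Agent.H1KR Crest.Agent.H2.KS

namespace Crest.Agent.H8.KR

variable {K : Type*} [NormedAddCommGroup K] [InnerProductSpace ℂ K] [CompleteSpace K]
  {C : Set (K →L[ℂ] K)} {S : StarSubalgebra ℂ (K →L[ℂ] K)} {ι : Type*}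

/-- Weak operator limits. -/
def Lim (𝒰 : Filter ι) (F : ι → S) (x : S) : Prop :=
  ∀ ξ η : K, Tendsto (fun i => ⟪η, (F i : K →L[ℂ] K) ξ⟫_ℂ) 𝒰 (𝓝 ⟪η, (x : K →L[ℂ] K) ξ⟫_ℂ)

section lim
variable {𝒰 : Filter ι} {F F' : ι → S} {x y : S}

theorem Lim.unique [𝒰.NeBot] (h : Lim 𝒰 F x) (h' : Lim 𝒰 F y) : x = y :=
  Subtype.ext (ContinuousLinearMap.ext fun ξ => ext_inner_left ℂ fun η =>
    tendsto_nhds_unique (h ξ η) (h' ξ η))

theorem Lim.const (x : S) : Lim 𝒰 (fun _ => x) x := fun _ _ => tendsto_const_nhds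

theorem Lim.congr (h : Lim 𝒰 F x) (h' : ∀ᶠ i in 𝒰, F i = F' i) : Lim 𝒰 F' x := fun ξ η =>
  (h ξ η).congr' (h'.mono fun i hi => by simp only [hi])

theorem Lim.add (h : Lim 𝒰 F x) (h' : Lim 𝒰 F' y) : Lim 𝒰 (fun i => F i + F' i) (x + y) :=
  fun ξ η => by simpa [inner_add_right] using (h ξ η).add (h' ξ η)

theorem Lim.sub (h : Lim 𝒰 F x) (h' : Lim 𝒰 F' y) : Lim 𝒰 (fun i => F i - F' i) (x - y) :=
  fun ξ η => by simpa [inner_sub_right] using (h ξ η).sub (h' ξ η)

theorem Lim.smul (h : Lim 𝒰 F x) (c : ℂ) : Lim 𝒰 (fun i => c • F i) (c • x) :=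
  fun ξ η => by simpa [inner_smul_right] using (h ξ η).const_mul c

theorem Lim.mul_right (h : Lim 𝒰 F x) (a : S) : Lim 𝒰 (fun i => F i * a) (x * a) :=
  fun ξ η => h ((a : K →L[ℂ] K) ξ) η

theorem Lim.mul_left (h : Lim 𝒰 F x) (a : S) : Lim 𝒰 (fun i => a * F i) (a * x) := fun ξ η => by
  simpa [ContinuousLinearMap.adjoint_inner_left] using
    h ξ (ContinuousLinearMap.adjoint (a : K →L[ℂ] K) η)

theorem norm_inner_le (a : S) (ξ η : K) : ‖⟪η, (a : K →L[ℂ] K) ξ⟫_ℂ‖ ≤ ‖η‖ * (‖a‖ * ‖ξ‖) :=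
  (norm_inner_le_norm _ _).trans (by gcongr; exact (a : K →L[ℂ] K).le_opNorm ξ)

theorem Lim.norm_le [𝒰.NeBot] (h : Lim 𝒰 F x) {M : ℝ} (hM : ∀ᶠ i in 𝒰, ‖F i‖ ≤ M) : ‖x‖ ≤ M := by
  have h0 : 0 ≤ M := let ⟨_, hi⟩ := hM.exists; (norm_nonneg _).trans hi
  refine ContinuousLinearMap.opNorm_le_bound (x : K →L[ℂ] K) h0 fun ξ => ?_
  have h1 := le_of_tendsto (h ξ ((x : K →L[ℂ] K) ξ)).norm
    (hM.mono fun i hi => (norm_inner_le (F i) _ _).trans (mul_le_mul_of_nonneg_left
      (mul_le_mul_of_nonneg_right hi (norm_nonneg _)) (norm_nonneg _)))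
  rw [inner_self_eq_norm_sq_to_K] at h1
  simp only [norm_pow, RCLike.norm_ofReal, abs_norm] at h1
  rcases (norm_nonneg ((x : K →L[ℂ] K) ξ)).eq_or_lt with h2 | h2
  · rw [← h2]; positivity
  · exact le_of_mul_le_mul_left (by rwa [← sq]) h2

theorem Lim.of_norm {e : ι → ℝ} (he : Tendsto e 𝒰 (𝓝 0)) (h : ∀ᶠ i in 𝒰, ‖F i‖ ≤ e i) :
    Lim 𝒰 F 0 := fun ξ η => by
  simp only [ZeroMemClass.coe_zero, zero_apply, inner_zero_right]
  refine squeeze_zero_norm' (h.mono fun i hi => (norm_inner_le (F i) _ _).trans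
    (mul_le_mul_of_nonneg_left (mul_le_mul_of_nonneg_right hi (norm_nonneg _)) (norm_nonneg _))) ?_
  simpa using (he.mul_const ‖ξ‖).const_mul ‖η‖

theorem exists_lim (hS : ∀ a, a ∈ S ↔ a ∈ C.centralizer) (𝒰 : Ultrafilter ι) (F : ι → S) {M : ℝ}
    (hM : ∀ᶠ i in 𝒰, ‖F i‖ ≤ M) : ∃ x, Lim 𝒰 F x := by
  have hb : ∀ v u : K, ∀ᶠ i in 𝒰, ‖⟪(F i : K →L[ℂ] K) v, u⟫_ℂ‖ ≤ M * ‖v‖ * ‖u‖ := fun v u =>
    hM.mono fun i hi => (norm_inner_le_norm _ _).trans (by
      gcongr
      exact ((F i : K →L[ℂ] K).le_opNorm v).trans (by gcongr; exact hi))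
  have hex : ∀ v u : K, ∃ l, Tendsto (fun i => ⟪(F i : K →L[ℂ] K) v, u⟫_ℂ) 𝒰 (𝓝 l) := fun v u => by
    obtain ⟨l, -, hl⟩ := (isCompact_closedBall (0 : ℂ) (M * ‖v‖ * ‖u‖)).ultrafilter_le_nhds
      (𝒰.map fun i => ⟪(F i : K →L[ℂ] K) v, u⟫_ℂ) (by
        rw [Filter.le_principal_iff, Ultrafilter.coe_map, Filter.mem_map]
        exact (hb v u).mono fun i hi => by simpa using hi)
    exact ⟨l, hl⟩
  choose B hB using hex
  let Bl : K →ₗ⋆[ℂ] K →ₗ[ℂ] ℂ := LinearMap.mk₂'ₛₗ (starRingEnd ℂ) (RingHom.id ℂ) B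
    (fun v₁ v₂ u => tendsto_nhds_unique (hB (v₁ + v₂) u) (by
      simpa only [map_add, inner_add_left] using (hB v₁ u).add (hB v₂ u)))
    (fun c v u => tendsto_nhds_unique (hB (c • v) u) (by
      simpa only [map_smul, inner_smul_left, smul_eq_mul] using (hB v u).const_mul _))
    (fun v u₁ u₂ => tendsto_nhds_unique (hB v (u₁ + u₂)) (by
      simpa only [inner_add_right] using (hB v u₁).add (hB v u₂)))
    (fun c v u => tendsto_nhds_unique (hB v (c • u)) (by
      simpa only [inner_smul_right, smul_eq_mul, RingHom.id_apply] using (hB v u).const_mul _))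
  have hBl : ∀ v u, ‖Bl v u‖ ≤ M * ‖v‖ * ‖u‖ := fun v u => le_of_tendsto (hB v u).norm (hb v u)
  let y := InnerProductSpace.continuousLinearMapOfBilin (LinearMap.mkContinuous₂ Bl M hBl)
  have hy : ∀ u v, Tendsto (fun i => ⟪u, (F i : K →L[ℂ] K) v⟫_ℂ) 𝒰 (𝓝 ⟪u, y v⟫_ℂ) := fun u v => by
    have h1 : ⟪y v, u⟫_ℂ = B v u := InnerProductSpace.continuousLinearMapOfBilin_apply _ v u
    have h2 := (Complex.continuous_conj.tendsto _).comp (hB v u)
    rw [← h1, inner_conj_symm] at h2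
    refine h2.congr fun k => ?_
    simp only [Function.comp_apply, inner_conj_symm]
  refine ⟨⟨y, (hS y).2 fun c hc => ContinuousLinearMap.ext fun ξ => ext_inner_left ℂ fun η => ?_⟩,
    fun ξ η => hy η ξ⟩
  have h1 := hy (ContinuousLinearMap.adjoint c η) ξ
  simp only [ContinuousLinearMap.adjoint_inner_left] at h1
  refine tendsto_nhds_unique h1 ((hy η (c ξ)).congr fun i => ?_)
  exact congrArg (fun T : K →L[ℂ] K => ⟪η, T ξ⟫_ℂ) ((hS _).1 (F i).2 c hc).symm

theorem lim_dl {F : ι → List S → S} {G : List S → S} (h : ∀ l, Lim 𝒰 (fun i => F i l) (G l))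
    (a : S) (l : List S) : Lim 𝒰 (fun i => dl a l (F i)) (dl a l G) := by
  induction l generalizing a F G with
  | nil => exact Lim.const 0
  | cons b l ih => exact (h _).sub (ih (F := fun i => cons a (F i)) (fun t => h (a :: t)) b)

end lim

/-- Bounded multilinear bimodule maps. -/
structure Good {A : Type*} [NormedRing A] [NormedAlgebra ℂ A] (c : ℕ → ℝ) (G : List A → A) :
    Prop where
  lin : Lin G
  left : Left G
  right : Right G
  bd : Bd c G

theorem exists_good (hS : ∀ a, a ∈ S ↔ a ∈ C.centralizer) (𝒰 : Ultrafilter ι)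
    {F : ι → List S → S} (hl : ∀ i, Lin (F i)) (hL : ∀ i, Left (F i)) (hR : ∀ i, Right (F i))
    {c : ℕ → ℝ} (hc : ∀ k, 0 ≤ c k) (hb : ∀ l, ∀ᶠ i in 𝒰, ‖F i l‖ ≤ c l.length * np l) :
    ∃ G, Good c G ∧ ∀ l, Lim 𝒰 (fun i => F i l) (G l) := by
  choose G hG using fun l => exists_lim hS 𝒰 (fun i => F i l) (hb l)
  refine ⟨G, ⟨fun l₁ l₂ => ⟨fun x y => ?_, fun t x => ?_⟩, fun a b l => ?_, fun a l b d => ?_,
    hc, fun l => (hG l).norm_le (hb l)⟩, hG⟩
  · exact (hG _).unique (((hG _).add (hG _)).congr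
      (.of_forall fun i => ((hl i l₁ l₂).map_add x y).symm))
  · exact (hG _).unique (((hG _).smul t).congr
      (.of_forall fun i => ((hl i l₁ l₂).map_smul t x).symm))
  · exact (hG _).unique (((hG _).mul_left a).congr (.of_forall fun i => (hL i a b l).symm))
  · exact (hG _).unique (((hG _).mul_right d).congr (.of_forall fun i => (hR i a l b d).symm))

theorem contract (hS : ∀ a, a ∈ S ↔ a ∈ C.centralizer) (𝒰 : Ultrafilter ι)
    (ω : ι → List (S × S)) {G : List S → S} (hl : Lin G) (hL : Left G) (hR : Right G)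
    (hG : ∀ a l, dl a l G = 0) {p : S} (hp : ∀ᶠ i in 𝒰, (ls (ω i) fun q => q.1 * q.2) = p)
    {c : ℕ → ℝ} (hc : ∀ k, 0 ≤ c k)
    (hb : ∀ l, ∀ᶠ i in 𝒰, ‖tav (ω i) (fun x => G (1 :: x :: l)) 1‖ ≤ c (l.length + 1) * np l)
    (hlim : ∀ l b, Lim 𝒰 (fun i => tav (ω i) (fun x => G (1 :: x :: l)) b -
      b * tav (ω i) (fun x => G (1 :: x :: l)) 1) 0) :
    ∃ G', Good c G' ∧ ∀ a b l, dl a (b :: l) G' = G (a * p :: b :: l) := by
  have h1 : ∀ i a b l, (ls (ω i) fun q => G (a * q.1 :: q.2 * b :: l)) =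
      a * tav (ω i) (fun x => G (1 :: x :: l)) b := fun i a b l => by
    rw [tav, ← ls, ← ls_mul_left]
    simp only [← hL _ _ _, mul_one]
  have h2 : ∀ i a l, un (fun a l => ls (ω i) fun q => LinearMap.proj (a * q.1 :: q.2 :: l)) G
      (a :: l) = ls (ω i) fun q => G (a * q.1 :: q.2 :: l) := fun i a l => ls_lin_apply _ _ _
  obtain ⟨G', h3, h4⟩ := exists_good hS 𝒰
    (F := fun i => un (fun a l => ls (ω i) fun q => LinearMap.proj (a * q.1 :: q.2 :: l)) G)
    (fun i l₁ l₂ => by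
      cases l₁ with
      | nil =>
        simp only [List.nil_append, h2]
        exact lin_ls _ fun q => (lin_comp (hl [] (q.2 :: l₂)) (lin_mul_right q.1) :)
      | cons a l₁ =>
        simp only [List.cons_append, h2]
        exact lin_ls _ fun q => hl (a * q.1 :: q.2 :: l₁) l₂)
    (fun i a b l => by simp only [h2, mul_assoc, hL a, ls_mul_left])
    (fun i a l b d => by
      have := fun x y => hR x (y :: l) b d
      simp only [List.cons_append] at this
      simp only [h2, this, ls_mul_right]) hc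
    (fun l => by
      cases l with
      | nil => exact .of_forall fun i => by simpa using hc 0
      | cons a l =>
        refine (hb l).mono fun i hi => ?_
        have := h1 i a 1 l
        simp only [mul_one] at this
        rw [h2, this, np_cons, List.length_cons, mul_left_comm]
        exact (norm_mul_le _ _).trans (mul_le_mul_of_nonneg_left hi (norm_nonneg _)))
  refine ⟨G', h3, fun a b l => (lim_dl h4 a (b :: l)).unique ?_⟩
  have h5 := (Lim.const (𝒰 := (𝒰 : Filter ι)) (G (a * p :: b :: l))).sub ((hlim l b).mul_left a)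
  rw [mul_zero, sub_zero] at h5
  refine h5.congr (hp.mono fun i hi => ?_)
  have h6 := lin_ls_one (ω := ω i) (hl [] (b :: l)) a 1
  have h7 := h1 i (a * b) 1 l
  simp only [mul_one, List.nil_append, hi] at h6 h7
  rw [contraction hG, h6, h7, h1, mul_sub, mul_assoc]
  abel

/-- `z G` is a coboundary, with bounds `c`. -/
def Sol {A : Type*} [NormedRing A] [NormedAlgebra ℂ A] (c : ℕ → ℝ) (z : A) (G : List A → A) :
    Prop :=
  ∃ G', Good c G' ∧ ∀ a b l, dl a (b :: l) G' = z * G (a :: b :: l)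

section alg
variable {A : Type*} [NormedRing A] [NormedAlgebra ℂ A] {c c' : ℕ → ℝ} {G G' : List A → A} {z : A}

theorem Sol.mono (h : Sol c z G) (hc : ∀ k, c k ≤ c' k) : Sol c' z G :=
  let ⟨G', h1, h2⟩ := h; ⟨G', ⟨h1.lin, h1.left, h1.right, h1.bd.mono hc⟩, h2⟩

theorem Good.smul (h : Good c G) (hz : ∀ a, Commute z a) (hn : ‖z‖ ≤ 1) : Good c (z • G) :=
  ⟨fun l₁ l₂ => (lin_comp (lin_mul_left z) (h.lin l₁ l₂) :), fun a b l => by
    simp only [Pi.smul_apply, smul_eq_mul, h.left a, ← mul_assoc, (hz a).eq], fun a l b d => by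
    simp only [Pi.smul_apply, smul_eq_mul, h.right a, mul_assoc], h.bd.1, fun l =>
    (norm_mul_le _ _).trans ((mul_le_of_le_one_left (norm_nonneg _) hn).trans (h.bd.2 l))⟩

theorem Good.add (h : Good c G) (h' : Good c' G') : Good (fun k => c k + c' k) (G + G') :=
  ⟨fun l₁ l₂ => lin_add (h.lin l₁ l₂) (h'.lin l₁ l₂), fun a b l => by
    simp only [Pi.add_apply, h.left a, h'.left a, mul_add], fun a l b d => by
    simp only [Pi.add_apply, h.right a, h'.right a, add_mul],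
    fun k => add_nonneg (h.bd.1 k) (h'.bd.1 k), fun l => by
    rw [add_mul]; exact norm_add_le_of_le (h.bd.2 l) (h'.bd.2 l)⟩

end alg

theorem norm_one_le : ‖(1 : S)‖ ≤ 1 := ContinuousLinearMap.norm_id_le

theorem sol_zmean (hS : ∀ a, a ∈ S ↔ a ∈ C.centralizer) {z : S} (hz : IsCP C.centralizer z)
    (hm : ZMean S z) {c : ℕ → ℝ} {G : List S → S} (h : Good c G) (hG : ∀ a l, dl a l G = 0) :
    Sol (fun k => c (k + 1)) z G := by
  have hzc : ∀ a, Commute z a := fun a => Subtype.ext (hz.comm a ((hS _).1 a.2))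
  have hz2 : z * z = z := Subtype.ext hz.proj.isIdempotentElem
  have h2 := h.smul hzc hz.proj.norm_le
  obtain ⟨l, hl, h3, h4⟩ := hm
  have hu : (Ultrafilter.of l : Filter _) ≤ l := Ultrafilter.of_le l
  have h5 : ∀ {G : List S → S}, Good c G → ∀ t x, ‖G (1 :: x :: t)‖ ≤
      c (t.length + 1 + 1) * np t * ‖x‖ := fun h t x => (h.bd.2 _).trans (by
    have := h.bd.1 (t.length + 1 + 1)
    have := np_nonneg t
    simp only [np_cons, List.length_cons]
    calc _ ≤ c (t.length + 1 + 1) * (1 * (‖x‖ * np t)) := by gcongr; exact norm_one_le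
      _ = _ := by ring)
  obtain ⟨G', h6, h7⟩ := contract hS (Ultrafilter.of l) id h2.lin h2.left h2.right
    (fun a l => by rw [map_smul, hG, smul_zero]) (p := z) ((h3.filter_mono hu).mono fun _ h => h.1)
    (c := fun k => c (k + 1)) (fun k => h.bd.1 _)
    (fun t => (h3.filter_mono hu).mono fun ω hω => by
      have := h.bd.1 (t.length + 1 + 1)
      have := np_nonneg t
      refine (norm_ls_bil ω _ (M := c (t.length + 1 + 1) * np t) fun p => ?_).trans
        (mul_le_of_le_one_right (by positivity) hω.2)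
      rw [mul_one, mul_left_comm]
      exact (norm_mul_le _ _).trans (mul_le_mul_of_nonneg_left (h5 h2 t _) (norm_nonneg _)))
    (fun t b ξ η => by
      have h6 : ∀ ω b, tav ω (fun x => (z • G) (1 :: x :: t)) b =
          z * tav ω (fun x => G (1 :: x :: t)) b := fun ω b => by
        rw [tav, tav, ← ls, ← ls, ← ls_mul_left]
        simp only [Pi.smul_apply, smul_eq_mul, ← mul_assoc, (hzc _).eq]
      have := (h4 ((IsLinearMap.mk' _ (h.lin [1] t)).mkContinuous _ (h5 h t)) b ξ η).mono_left hu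
      simp only [ZeroMemClass.coe_zero, zero_apply, inner_zero_right, h6, id]
      refine this.congr fun ω => ?_
      rw [mul_sub, ← mul_assoc z b, (hzc b).eq, mul_assoc b]
      rfl)
  refine ⟨G', h6, fun a b t => ?_⟩
  rw [h7, Pi.smul_apply, smul_eq_mul, ← (hzc a).eq, h.left, ← mul_assoc, hz2]

end Crest.Agent.H8.KR
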