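import Crest.Agent.H8.KR.A2

/-! An approximate diagonal for a pair of Cuntz isometries. -/

set_option autoImplicit false
set_option linter.unusedSectionVars false

open scoped TensorProduct
open TensorProduct LinearMap

namespace Crest.Agent.H8.KR

variable {A : Type*} [NormedRing A] [NormedAlgebra ℂ A]

section PN
variable {t t' : A ⊗[ℂ] A} {r r' : ℝ}

theorem PN.mono (h : PN t r) (hr : r ≤ r') : PN t r' :=
  let ⟨ω, h1, h2⟩ := h; ⟨ω, h1, h2.trans hr⟩

theorem PN.zero : PN (0 : A ⊗[ℂ] A) 0 := ⟨[], rfl, le_rfl⟩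

theorem PN.tmul {x y : A} {a b : ℝ} (hx : ‖x‖ ≤ a) (hy : ‖y‖ ≤ b) : PN (x ⊗ₜ[ℂ] y) (a * b) :=
  ⟨[(x, y)], by simp [tn], by
    simpa [nrm] using mul_le_mul hx hy (norm_nonneg _) ((norm_nonneg _).trans hx)⟩

theorem PN.add (h : PN t r) (h' : PN t' r') : PN (t + t') (r + r') :=
  let ⟨ω, h1, h2⟩ := h; let ⟨ω', h3, h4⟩ := h'
  ⟨ω ++ ω', by rw [← h1, ← h3]; exact ls_append _ _ _, by
    rw [nrm, ls_append]; exact add_le_add h2 h4⟩

theorem PN.map (h : PN t r) (φ : A ⊗[ℂ] A →ₗ[ℂ] A ⊗[ℂ] A) {M : ℝ} (hM : 0 ≤ M)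
    (hφ : ∀ x y, PN (φ (x ⊗ₜ y)) (M * (‖x‖ * ‖y‖))) : PN (φ t) (M * r) := by
  obtain ⟨ω, rfl, h⟩ := h
  refine PN.mono ?_ (mul_le_mul_of_nonneg_left h hM)
  clear h
  induction ω with
  | nil => simpa [tn, nrm] using PN.zero
  | cons p ω ih =>
    rw [tn, nrm, ls_cons, ls_cons, map_add, mul_add]
    exact (hφ _ _).add ih

theorem PN.smul (h : PN t r) (c : ℂ) : PN (c • t) (‖c‖ * r) :=
  h.map (c • LinearMap.id) (norm_nonneg c) fun x y => by
    rw [LinearMap.smul_apply, LinearMap.id_apply, smul_tmul', ← mul_assoc]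
    exact PN.tmul (norm_smul_le c x) le_rfl

theorem PN.sub (h : PN t r) (h' : PN t' r') : PN (t - t') (r + r') := by
  simpa [sub_eq_add_neg] using h.add (h'.smul (-1))

theorem PN.sum {f : ℕ → A ⊗[ℂ] A} {n : ℕ} (h : ∀ p < n, PN (f p) r) :
    PN (∑ p ∈ Finset.range n, f p) (n * r) := by
  induction n with
  | zero => simpa using PN.zero
  | succ n ih =>
    rw [Finset.sum_range_succ, Nat.cast_succ, add_mul, one_mul]
    exact (ih fun p hp => h p (by omega)).add (h n (by omega))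

theorem PN.left (h : PN t r) {s : A} (hs : ‖s‖ ≤ 1) : PN ((mulLeft ℂ s).rTensor A t) r := by
  simpa using h.map ((mulLeft ℂ s).rTensor A) zero_le_one fun x y => by
    rw [one_mul]
    exact PN.tmul ((norm_mul_le _ _).trans (mul_le_of_le_one_left (norm_nonneg _) hs)) le_rfl

theorem PN.right (h : PN t r) {s : A} (hs : ‖s‖ ≤ 1) : PN ((mulRight ℂ s).lTensor A t) r := by
  simpa using h.map ((mulRight ℂ s).lTensor A) zero_le_one fun x y => by
    rw [one_mul]
    exact PN.tmul le_rfl ((norm_mul_le _ _).trans (mul_le_of_le_one_right (norm_nonneg _) hs))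

end PN

/-- Algebraic Cuntz relations under a central idempotent, with norm bounds. -/
structure Cu (z : A) (s u : Fin 2 → A) : Prop where
  zc : ∀ a, Commute z a
  z2 : z * z = z
  orth : ∀ i j, u i * s j = if i = j then z else 0
  sum : ∑ i, s i * u i = z
  zs : ∀ i, z * s i = s i
  zu : ∀ i, z * u i = u i
  nz : ‖z‖ ≤ 1
  nz' : ‖1 - z‖ ≤ 1
  ns : ∀ i, ‖s i‖ ≤ 1
  nu : ∀ i, ‖u i‖ ≤ 1
  n1 : ∀ x y : A, ‖y‖ = ‖x‖ → ‖s 0 * x * u 0 + s 1 * y * u 1‖ ≤ ‖x‖
  n2 : ∀ x y : A, ‖y‖ = ‖x‖ → ‖s 0 * x * u 1 + s 1 * y * u 0‖ ≤ ‖x‖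

/-- The outer shift. -/
noncomputable def opA (s u : Fin 2 → A) : Module.End ℂ (A ⊗[ℂ] A) :=
  ∑ i, map (mulLeft ℂ (s i)) (mulRight ℂ (u i))

/-- The inner shift. -/
noncomputable def opB (s u : Fin 2 → A) : Module.End ℂ (A ⊗[ℂ] A) :=
  (1 / 2 : ℂ) • ∑ i, map (mulRight ℂ (u i)) (mulLeft ℂ (s i))

variable {z : A} {s u : Fin 2 → A}

theorem opA_tmul (x y : A) : opA s u (x ⊗ₜ y) = ∑ i, (s i * x) ⊗ₜ (y * u i) := by
  simp [opA]

theorem opB_tmul (x y : A) : opB s u (x ⊗ₜ y) = (1 / 2 : ℂ) • ∑ i, (x * u i) ⊗ₜ (s i * y) := by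
  simp [opB]

theorem opAB_comm : Commute (opA s u) (opB s u) := by
  refine TensorProduct.ext' fun x y => ?_
  simp only [Module.End.mul_apply, opA_tmul, opB_tmul, map_smul, map_sum, ← Finset.smul_sum,
    mul_assoc]
  rw [Finset.sum_comm]

theorem Cu.pnB (h : Cu z s u) {t : A ⊗[ℂ] A} {r : ℝ} (ht : PN t r) : PN (opB s u t) r := by
  simpa using ht.map (opB s u) zero_le_one fun x y => by
    have h1 : ∀ i, PN ((x * u i) ⊗ₜ[ℂ] (s i * y)) (‖x‖ * ‖y‖) := fun i =>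
      PN.tmul ((norm_mul_le _ _).trans (mul_le_of_le_one_right (norm_nonneg _) (h.nu i)))
        ((norm_mul_le _ _).trans (mul_le_of_le_one_left (norm_nonneg _) (h.ns i)))
    rw [opB_tmul, Fin.sum_univ_two]
    refine (((h1 0).add (h1 1)).smul _).mono (le_of_eq ?_)
    simp only [one_div, norm_inv, Complex.norm_ofNat]
    ring

theorem Cu.pnAB (h : Cu z s u) {t : A ⊗[ℂ] A} {r : ℝ} (ht : PN t r) :
    PN ((opA s u * opB s u) t) r := by
  simpa using ht.map (opA s u * opB s u) zero_le_one fun x y => by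
    have h1 : (opA s u * opB s u) (x ⊗ₜ y) = (1 / 4 : ℂ) •
        ((s 0 * x * u 0 + s 1 * x * u 1) ⊗ₜ (s 0 * y * u 0 + s 1 * y * u 1) +
        (s 0 * x * u 0 + s 1 * -x * u 1) ⊗ₜ (s 0 * y * u 0 + s 1 * -y * u 1) +
        (s 0 * x * u 1 + s 1 * x * u 0) ⊗ₜ (s 0 * y * u 1 + s 1 * y * u 0) -
        (s 0 * x * u 1 + s 1 * -x * u 0) ⊗ₜ (s 0 * y * u 1 + s 1 * -y * u 0)) := by
      simp only [Module.End.mul_apply, opA_tmul, opB_tmul, map_smul, map_add, Fin.sum_univ_two,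
        mul_assoc, mul_neg, neg_mul, add_tmul, tmul_add, neg_tmul, tmul_neg]
      module
    rw [h1]
    refine (((((PN.tmul (h.n1 x x rfl) (h.n1 y y rfl)).add
      (PN.tmul (h.n1 x _ (norm_neg x)) (h.n1 y _ (norm_neg y)))).add
      (PN.tmul (h.n2 x x rfl) (h.n2 y y rfl))).sub
      (PN.tmul (h.n2 x _ (norm_neg x)) (h.n2 y _ (norm_neg y)))).smul _).mono (le_of_eq ?_)
    simp only [one_div, norm_inv, Complex.norm_ofNat]
    ring

theorem Cu.pn (h : Cu z s u) {p N : ℕ} (hp : p ≤ N) :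
    PN ((opA s u ^ p) ((opB s u ^ N) (z ⊗ₜ z))) 1 := by
  obtain ⟨q, rfl⟩ := Nat.exists_eq_add_of_le hp
  rw [← Module.End.mul_apply, pow_add, ← mul_assoc, ← opAB_comm.mul_pow, Module.End.mul_apply]
  have h1 : PN ((opB s u ^ q) (z ⊗ₜ z)) 1 := by
    clear hp
    induction q with
    | zero => simpa using PN.tmul h.nz h.nz
    | succ q ih => rw [pow_succ']; exact h.pnB ih
  clear hp
  induction p with
  | zero => exact h1
  | succ p ih => rw [pow_succ']; exact h.pnAB ih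

/-- Tensors supported on `z` with product `z`. -/
def Inv (z : A) (t : A ⊗[ℂ] A) : Prop :=
  (mulLeft ℂ z).rTensor A t = t ∧ (mulRight ℂ z).lTensor A t = t ∧ mul' ℂ A t = z

theorem Cu.uz (h : Cu z s u) (i : Fin 2) : u i * z = u i := by rw [← (h.zc _).eq, h.zu]

theorem Cu.sz (h : Cu z s u) (i : Fin 2) : s i * z = s i := by rw [← (h.zc _).eq, h.zs]

theorem Cu.invA (h : Cu z s u) {t : A ⊗[ℂ] A} (ht : Inv z t) : Inv z (opA s u t) := by
  have h1 : ∀ t, (mulLeft ℂ z).rTensor A (opA s u t) = opA s u t ∧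
      (mulRight ℂ z).lTensor A (opA s u t) = opA s u t ∧
      mul' ℂ A (opA s u t) = ∑ i, s i * mul' ℂ A t * u i := fun t => by
    induction t with
    | zero => simp
    | tmul x y =>
      refine ⟨?_, ?_, ?_⟩
      · simp [opA_tmul, ← mul_assoc, h.zs]
      · simp [opA_tmul, mul_assoc, h.uz]
      · simp [opA_tmul, mul_assoc]
    | add x y hx hy =>
      simp only [map_add, hx.1, hx.2.1, hx.2.2, hy.1, hy.2.1, hy.2.2, mul_add, add_mul,
        Finset.sum_add_distrib, and_self]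
  refine ⟨(h1 t).1, (h1 t).2.1, ?_⟩
  simp only [(h1 t).2.2, ht.2.2, h.sz, h.sum]

theorem Cu.invB (h : Cu z s u) {t : A ⊗[ℂ] A} (ht : Inv z t) : Inv z (opB s u t) := by
  have h1 : ∀ t, (mulLeft ℂ z).rTensor A (opB s u t) = opB s u t ∧
      (mulRight ℂ z).lTensor A (opB s u t) = opB s u t ∧
      mul' ℂ A (opB s u t) = z * mul' ℂ A t := fun t => by
    induction t with
    | zero => simp
    | tmul x y =>
      refine ⟨?_, ?_, ?_⟩
      · simp [opB_tmul, (h.zc _).eq, mul_assoc, h.uz]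
      · simp [opB_tmul, ← (h.zc _).eq, ← mul_assoc, h.zs]
      · have : ∀ i, x * u i * (s i * y) = z * (x * y) := fun i => by
          rw [mul_assoc, ← mul_assoc (u i), h.orth, if_pos rfl, ← mul_assoc, ← (h.zc _).eq,
            mul_assoc]
        simp only [opB_tmul, map_smul, map_add, mul'_apply, this, Fin.sum_univ_two]
        module
    | add x y hx hy =>
      simp only [map_add, hx.1, hx.2.1, hx.2.2, hy.1, hy.2.1, hy.2.2, mul_add, and_self]
  refine ⟨(h1 t).1, (h1 t).2.1, ?_⟩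
  rw [(h1 t).2.2, ht.2.2, h.z2]

theorem Cu.inv (h : Cu z s u) (p N : ℕ) : Inv z ((opA s u ^ p) ((opB s u ^ N) (z ⊗ₜ z))) := by
  induction p with
  | zero =>
    induction N with
    | zero => simp [Inv, h.z2]
    | succ q ih => rw [pow_succ']; exact h.invB ih
  | succ p ih => rw [pow_succ']; exact h.invA ih

theorem Cu.cm_s (h : Cu z s u) {t : A ⊗[ℂ] A} (ht : Inv z t) (j : Fin 2) :
    cm (s j) t = (mulRight ℂ (s j)).lTensor A (opA s u t - t) := by
  have h1 : ∀ t, (mulRight ℂ (s j)).lTensor A (opA s u t) =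
      (mulLeft ℂ (s j)).rTensor A ((mulRight ℂ z).lTensor A t) := fun t => by
    induction t with
    | zero => simp
    | tmul x y => fin_cases j <;> simp [opA_tmul, mul_assoc, h.orth]
    | add x y hx hy => simp only [map_add, hx, hy]
  rw [map_sub, h1, ht.2.1, cm]

theorem Cu.cm_u (h : Cu z s u) {t : A ⊗[ℂ] A} (ht : Inv z t) (j : Fin 2) :
    cm (u j) t = (mulLeft ℂ (u j)).rTensor A (t - opA s u t) := by
  have h1 : ∀ t, (mulLeft ℂ (u j)).rTensor A (opA s u t) =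
      (mulRight ℂ (u j)).lTensor A ((mulLeft ℂ z).rTensor A t) := fun t => by
    induction t with
    | zero => simp
    | tmul x y => fin_cases j <;> simp [opA_tmul, ← mul_assoc, h.orth]
    | add x y hx hy => simp only [map_add, hx, hy]
  rw [map_sub, h1, ht.1, cm]

theorem Cu.exists_diag (h : Cu z s u) (N : ℕ) : ∃ ω : List (A × A),
    (ls ω fun p => p.1 * p.2) = 1 ∧ nrm ω ≤ 2 ∧ ∀ i, PN (cm (s i) (tn ω)) (2 / (N + 1)) ∧
      PN (cm (u i) (tn ω)) (2 / (N + 1)) := by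
  set t : ℕ → A ⊗[ℂ] A := fun p => (opA s u ^ p) ((opB s u ^ (N + 1)) (z ⊗ₜ z)) with ht
  have h1 : ∀ p, opA s u (t p) = t (p + 1) := fun p => by simp only [ht, pow_succ']; rfl
  have hN : ‖((N + 1 : ℂ))⁻¹‖ = ((N + 1 : ℝ))⁻¹ := by
    rw [norm_inv]; norm_cast
  have hN0 : (N + 1 : ℝ) ≠ 0 := by positivity
  have h2 : PN (((N + 1 : ℂ))⁻¹ • ∑ p ∈ Finset.range (N + 1), t p + (1 - z) ⊗ₜ (1 - z)) 2 := by
    refine (((PN.sum (r := 1) fun p hp => h.pn hp.le).smul _).add (PN.tmul h.nz' h.nz')).mono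
      (le_of_eq ?_)
    rw [hN]; push_cast; field_simp; norm_num
  obtain ⟨ω, h3, h4⟩ := h2
  have h5 : ∀ w : A, z * w = w → cm w (tn ω) =
      ((N + 1 : ℂ))⁻¹ • ∑ p ∈ Finset.range (N + 1), cm w (t p) := fun w hw => by
    have h6 : w * (1 - z) = 0 := by rw [mul_sub, ← (h.zc _).eq, hw, mul_one, sub_self]
    have h7 : (1 - z) * w = 0 := by rw [sub_mul, hw, one_mul, sub_self]
    simp only [h3, cm, map_add, map_smul, map_sum, rTensor_tmul, lTensor_tmul, mulLeft_apply,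
      mulRight_apply, h6, h7, zero_tmul, tmul_zero, add_zero, Finset.sum_sub_distrib, smul_sub]
  refine ⟨ω, ?_, h4, fun i => ⟨?_, ?_⟩⟩
  · have h6 : mul' ℂ A (tn ω) = ls ω fun p => p.1 * p.2 := by simp [tn, map_ls]
    have h7 : ∀ p, mul' ℂ A (t p) = z := fun p => (h.inv p _).2.2
    have h8 : (N + 1 : ℂ) ≠ 0 := by norm_cast
    rw [← h6, h3]
    simp only [map_add, map_smul, map_sum, h7, Finset.sum_const, Finset.card_range, mul'_apply,
      mul_sub, sub_mul, h.z2, one_mul, mul_one, ← Nat.cast_smul_eq_nsmul ℂ, smul_smul]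
    push_cast
    rw [inv_mul_cancel₀ h8, one_smul]
    abel
  · simp only [h5 _ (h.zs i), fun p => h.cm_s (t := t p) (h.inv p _) i, h1]
    rw [← map_sum, Finset.sum_range_sub]
    refine ((((h.pn le_rfl).sub (h.pn (Nat.zero_le _))).right (h.ns i)).smul _).mono (le_of_eq ?_)
    rw [hN]; field_simp; norm_num
  · simp only [h5 _ (h.zu i), fun p => h.cm_u (t := t p) (h.inv p _) i, h1]
    rw [← map_sum, Finset.sum_range_sub']
    refine ((((h.pn (Nat.zero_le _)).sub (h.pn le_rfl)).left (h.nu i)).smul _).mono (le_of_eq ?_)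
    rw [hN]; field_simp; norm_num

end Crest.Agent.H8.KR
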