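import Crest.Agent.H8.KR.A3
import Crest.Agent.H8.KR.A4

/-! The properly infinite case. -/

set_option autoImplicit false
set_option linter.unusedSectionVars false

open scoped InnerProductSpace
open Filter Topology Crest.Agent.H1KR Crest.Agent.H2.KS

namespace Crest.Agent.H8.KR

variable {K : Type*} [NormedAddCommGroup K] [InnerProductSpace ℂ K] [CompleteSpace K]
  {C : Set (K →L[ℂ] K)} {S : StarSubalgebra ℂ (K →L[ℂ] K)}

theorem inner_star_left (a : S) (ξ η : K) :
    ⟪η, ((star a : S) : K →L[ℂ] K) ξ⟫_ℂ = ⟪(a : K →L[ℂ] K) η, ξ⟫_ℂ :=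
  ContinuousLinearMap.adjoint_inner_right _ _ _

theorem mul_app (a b : S) (ξ : K) : ((a * b : S) : K →L[ℂ] K) ξ =
    (a : K →L[ℂ] K) ((b : K →L[ℂ] K) ξ) := rfl

theorem app_le (a : S) (ξ : K) : ‖(a : K →L[ℂ] K) ξ‖ ≤ ‖a‖ * ‖ξ‖ := (a : K →L[ℂ] K).le_opNorm ξ

theorem sum_app {I : Type*} [Fintype I] (a : I → S) (ξ : K) :
    ((∑ i, a i : S) : K →L[ℂ] K) ξ = ∑ i, (a i : K →L[ℂ] K) ξ := by
  rw [AddSubmonoidClass.coe_finsetSum, sum_apply]

theorem norm_le_of_sq (a : S) {M : ℝ} (hM : 0 ≤ M)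
    (h : ∀ ξ, ‖(a : K →L[ℂ] K) ξ‖ ^ 2 ≤ M ^ 2 * ‖ξ‖ ^ 2) : ‖a‖ ≤ M :=
  ContinuousLinearMap.opNorm_le_bound (a : K →L[ℂ] K) hM fun ξ =>
    le_of_sq_le_sq (by rw [mul_pow]; exact h ξ) (by positivity)

section os
variable {I : Type*} [Fintype I] [DecidableEq I] {z : S} {t : I → S}

/-- Orthogonal systems. -/
def OS (z : S) (t : I → S) : Prop := ∀ i j, star (t i) * t j = if i = j then z else 0

theorem OS.row (h : OS z t) (hz : ‖z‖ ≤ 1) (ξ : I → K) :
    ‖∑ i, (t i : K →L[ℂ] K) (ξ i)‖ ^ 2 ≤ ∑ i, ‖ξ i‖ ^ 2 := by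
  have h1 : ⟪∑ i, (t i : K →L[ℂ] K) (ξ i), ∑ i, (t i : K →L[ℂ] K) (ξ i)⟫_ℂ =
      ∑ i, ⟪ξ i, (z : K →L[ℂ] K) (ξ i)⟫_ℂ := by
    rw [sum_inner]
    refine Finset.sum_congr rfl fun i _ => ?_
    rw [inner_sum, Finset.sum_eq_single i (fun j _ hj => ?_) (by simp)]
    · rw [← inner_star_left, ← mul_app, h, if_pos rfl]
    · rw [← inner_star_left, ← mul_app, h, if_neg hj.symm]; simp
  have h2 := congrArg norm h1
  rw [inner_self_eq_norm_sq_to_K] at h2
  simp only [norm_pow, RCLike.norm_ofReal, abs_norm] at h2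
  rw [h2]
  refine norm_sum_le_of_le _ fun i _ => (norm_inner_le z _ _).trans ?_
  rw [sq]
  exact mul_le_mul_of_nonneg_left (mul_le_of_le_one_left (norm_nonneg _) hz) (norm_nonneg _)

theorem OS.col (h : OS z t) (hz : ‖z‖ ≤ 1) (ξ : K) :
    ∑ i, ‖((star (t i) : S) : K →L[ℂ] K) ξ‖ ^ 2 ≤ ‖ξ‖ ^ 2 := by
  set Q := ∑ i, ‖((star (t i) : S) : K →L[ℂ] K) ξ‖ ^ 2 with hQ
  have h0 : 0 ≤ Q := by positivity
  have h1 : (Q : ℂ) = ⟪∑ i, (t i : K →L[ℂ] K) (((star (t i) : S) : K →L[ℂ] K) ξ), ξ⟫_ℂ := by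
    simp only [hQ, sum_inner, ← inner_star_left, inner_self_eq_norm_sq_to_K]
    push_cast; rfl
  have h2 := h.row hz fun i => ((star (t i) : S) : K →L[ℂ] K) ξ
  have h3 := norm_inner_le_norm (𝕜 := ℂ)
    (∑ i, (t i : K →L[ℂ] K) (((star (t i) : S) : K →L[ℂ] K) ξ)) ξ
  rw [← h1, Complex.norm_real, Real.norm_of_nonneg h0] at h3
  rw [← hQ] at h2
  nlinarith [sq_nonneg (‖∑ i, (t i : K →L[ℂ] K) (((star (t i) : S) : K →L[ℂ] K) ξ)‖ - ‖ξ‖)]

theorem OS.diag {u : I → S} (h : OS z t) (h' : OS z u) (hz : ‖z‖ ≤ 1) (x : I → S) {M : ℝ}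
    (hM : 0 ≤ M) (hx : ∀ i, ‖x i‖ ≤ M) : ‖∑ i, t i * x i * star (u i)‖ ≤ M := by
  refine norm_le_of_sq _ hM fun ξ => ?_
  simp only [sum_app, mul_app]
  refine (h.row hz _).trans (le_trans ?_ (mul_le_mul_of_nonneg_left (h'.col hz ξ) (sq_nonneg M)))
  rw [Finset.mul_sum]
  refine Finset.sum_le_sum fun i _ => ?_
  rw [← mul_pow]
  gcongr
  exact (app_le _ _).trans (by gcongr; exact hx i)

theorem OS.sandwich {J : Type*} [Fintype J] [DecidableEq J] {u : J → S} (h : OS z t) (h' : OS z u)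
    (hz : ∀ a, Commute z a) (hz2 : z * z = z) (x : I → J → S) (i : I) (j : J) :
    star (t i) * (∑ i, ∑ j, t i * x i j * star (u j)) * u j = z * x i j := by
  simp only [Finset.mul_sum, Finset.sum_mul, ← mul_assoc, h _ _]
  simp only [mul_assoc, h' _ _]
  simp [← (hz _).eq, ← mul_assoc, hz2]

end os

theorem cu_of_typeP (hS : ∀ a, a ∈ S ↔ a ∈ C.centralizer) {z : S} (hz : IsCP C.centralizer z)
    (hP : TypeP C.centralizer (z : K →L[ℂ] K)) :
    ∃ s : Fin 2 → S, OS z s ∧ Cu z s fun i => star (s i) := by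
  have hzc : ∀ a, Commute z a := fun a => Subtype.ext (hz.comm a ((hS _).1 a.2))
  have hz2 : z * z = z := Subtype.ext hz.proj.isIdempotentElem
  have hzs : star z = z := Subtype.ext hz.proj.isSelfAdjoint
  have hn : ‖z‖ ≤ 1 := hz.proj.norm_le
  obtain ⟨s₁, h1, s₂, h2, h3, h4, h5, h6⟩ := hP
  let s : Fin 2 → S := ![⟨s₁, (hS _).2 h1⟩, ⟨s₂, (hS _).2 h2⟩]
  have ho : OS z s := fun i j => by
    fin_cases i <;> fin_cases j <;> refine Subtype.ext ?_
    · exact h3
    · exact h5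
    · exact show star s₂ * s₁ = 0 by simpa using congrArg star h5
    · exact h4
  have ho' : OS z fun i => s (Fin.rev i) := fun i j => by simp only [ho _ _, Fin.rev_inj]
  have h7 : ∀ i, star (s i) * s i = z := fun i => by simp [ho _ _]
  have h8 : ∀ i, z * s i = s i := fun i => by
    rw [← sub_eq_zero, ← CStarRing.star_mul_self_eq_zero_iff, star_sub, star_mul, hzs, (hzc _).eq,
      ← (hzc (star _)).eq]
    simp only [sub_mul, mul_sub, mul_assoc, ← mul_assoc (star (s i)), h7, hz2, sub_self]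
  have h9 : ∀ i, ‖s i‖ ≤ 1 := fun i => by
    have := CStarRing.norm_star_mul_self (x := s i)
    rw [h7] at this
    nlinarith [norm_nonneg (s i)]
  refine ⟨s, ho, hzc, hz2, ho, ?_, h8, fun i => ?_, hn, hz.proj.one_sub.norm_le, h9,
    fun i => by rw [norm_star]; exact h9 i, fun x y hxy => ?_, fun x y hxy => ?_⟩
  · rw [Fin.sum_univ_two]; exact Subtype.ext h6
  · rw [(hzc _).eq, ← hzs, ← star_mul, h8]
  · have := ho.diag ho hn ![x, y] (norm_nonneg x) (Fin.forall_fin_two.2 ⟨le_rfl, hxy.le⟩)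
    rwa [Fin.sum_univ_two] at this
  · have := ho.diag ho' hn ![x, y] (norm_nonneg x) (Fin.forall_fin_two.2 ⟨le_rfl, hxy.le⟩)
    rwa [Fin.sum_univ_two] at this

/-- Modularity at every bond. -/
def Mod {A : Type*} [Mul A] (G : List A → A) (s : A) : Prop :=
  ∀ l₁ a b l₂, G (l₁ ++ a * s :: b :: l₂) = G (l₁ ++ a :: s * b :: l₂)

theorem Mod.mul {A : Type*} [Semigroup A] {G : List A → A} {s s' : A} (h : Mod G s)
    (h' : Mod G s') : Mod G (s * s') := fun l₁ a b l₂ => by
  rw [← mul_assoc, h', h, mul_assoc]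

theorem exists_mod (hS : ∀ a, a ∈ S ↔ a ∈ C.centralizer) {z : S} {s u : Fin 2 → S} (hs : Cu z s u)
    {c : ℕ → ℝ} {G : List S → S} (h : Good c G) (hG : ∀ a l, dl a l G = 0) :
    ∃ H G', Good (fun k => k * 2 ^ k * c (k + 1)) H ∧ Good (fun k => 2 ^ k * c k) G' ∧
      (∀ a l, dl a l G' = 0) ∧ (∀ a l, dl a l H + G' (a :: l) = G (a :: l)) ∧
      ∀ i, Mod G' (s i) ∧ Mod G' (u i) := by
  choose ω h1 h2 h3 using hs.exists_diag
  have hc := h.bd.1
  let 𝒰 : Ultrafilter ℕ := Ultrafilter.of atTop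
  obtain ⟨H, h4, h5⟩ := exists_good hS 𝒰 (F := fun N => un (ht (ω N)) G) (fun N => h.lin.ht)
    (fun N => h.left.ht) (fun N => h.right.ht) (c := fun k => k * 2 ^ k * c (k + 1))
    (fun k => by have := hc (k + 1); positivity) fun l => .of_forall fun N => by
      cases l with
      | nil => simp
      | cons a l =>
        have := hc (l.length + 2)
        have := np_nonneg l
        refine (h.bd.ht (h2 N) one_le_two a l).trans ?_
        simp only [List.length_cons, np_cons]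
        gcongr
        · exact Nat.le_succ _
        · exact one_le_two
        · exact Nat.le_succ _
  have h6 : ∀ a, H [a] = 0 := fun a => (h5 [a]).unique (Lim.const 0)
  have h7 : ∀ a l, Lim 𝒰 (fun N => ph (ω N) a l G) ((G - un dl H) (a :: l)) := fun a l =>
    ((Lim.const _).sub (lim_dl h5 a l)).congr (.of_forall fun N => by
      have := homotopy (h1 N) h.lin a l
      rw [ht_congr (G' := 0) hG, map_zero, zero_add] at this
      rw [this, sub_sub_cancel])
  have h8 : ∀ w : S, (∀ N, PN (cm w (tn (ω N))) (2 / (N + 1))) → Mod (G - un dl H) w := by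
    intro w hw l₁ a b l₂
    have he : ∀ M : ℝ, Tendsto (fun N : ℕ => M * (2 / (N + 1))) 𝒰 (𝓝 0) := fun M => by
      have := (tendsto_one_div_add_atTop_nhds_zero_nat (𝕜 := ℝ)).const_mul (M * 2)
      rw [mul_zero] at this
      exact (this.congr fun N => by ring).mono_left (Ultrafilter.of_le _)
    rw [← sub_eq_zero]
    cases l₁ with
    | nil => exact ((h7 _ _).sub (h7 _ _)).unique (Lim.of_norm (he _)
        (.of_forall fun N => ph_mod0 h.bd h.lin (h2 N) (hw N) a b l₂))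
    | cons a₀ l₁ => exact ((h7 _ _).sub (h7 _ _)).unique (Lim.of_norm (he _)
        (.of_forall fun N => ph_mod h.bd h.lin (h2 N) (by positivity) (hw N) a₀ a b l₁ l₂))
  refine ⟨H, G - un dl H, h4, ⟨fun l₁ l₂ => lin_sub (h.lin l₁ l₂) (h4.lin.dl l₁ l₂),
    fun a b l => ?_, fun a l b d => ?_, fun k => by have := hc k; positivity, fun l => ?_⟩,
    fun a l => by rw [map_sub, hG, dl_dl, sub_zero], fun a l => by simp,
    fun i => ⟨h8 _ fun N => (h3 N i).1, h8 _ fun N => (h3 N i).2⟩⟩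
  · rw [Pi.sub_apply, Pi.sub_apply, h.left, h4.left.dl, mul_sub]
  · rw [Pi.sub_apply, Pi.sub_apply, h.right, h4.right.dl h6, sub_mul]
  · cases l with
    | nil => simpa using h.bd.2 []
    | cons a l =>
      refine (h7 a l).norm_le (.of_forall fun N => (h.bd.ph (h2 N) a l).trans ?_)
      have := hc (l.length + 1)
      have := np_nonneg l
      simp only [List.length_cons, np_cons]
      gcongr
      · exact one_le_two
      · exact Nat.le_succ _

theorem exists_seq {z : S} {s : Fin 2 → S} (ho : OS z s) (hs : Cu z s fun i => star (s i))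
    {G : List S → S} (hm : ∀ i, Mod G (s i) ∧ Mod G (star (s i))) (I : Type*) [Fintype I]
    [DecidableEq I] : ∃ t : I → S, OS z t ∧ ∀ i, z * t i = t i ∧ Mod G (t i) ∧ Mod G (star (t i)) := by
  let t : ℕ → S := fun n => Nat.rec (s 0) (fun _ x => s 1 * x) n
  have h0 : t 0 = s 0 := rfl
  have h1 : ∀ n, t (n + 1) = s 1 * t n := fun n => rfl
  have h2 : ∀ n, z * t n = t n ∧ Mod G (t n) ∧ Mod G (star (t n)) := fun n => by
    induction n with
    | zero => exact ⟨hs.zs 0, hm 0⟩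
    | succ n ih => exact ⟨by rw [h1, ← mul_assoc, hs.zs], (hm 1).1.mul ih.2.1, by
        rw [h1, star_mul]; exact ih.2.2.mul (hm 1).2⟩
  have h3 : ∀ m n, star (t m) * t n = if m = n then z else 0 := fun m => by
    induction m with
    | zero =>
      intro n
      cases n with
      | zero => simp [h0, ho _ _]
      | succ n => simp [h0, h1, ← mul_assoc, ho _ _]
    | succ m ih =>
      intro n
      cases n with
      | zero => simp [h0, h1, mul_assoc, ho _ _]
      | succ n =>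
        rw [h1, h1, star_mul, mul_assoc, ← mul_assoc (star (s 1)), ho, if_pos rfl, (h2 n).1, ih]
        simp
  exact ⟨fun i => t (Fintype.equivFin I i), fun i j => by simp [h3, Fin.val_inj], fun i => h2 _⟩

theorem cb_of_mod {z : S} {s : Fin 2 → S} (ho : OS z s) (hs : Cu z s fun i => star (s i))
    {c : ℕ → ℝ} {G : List S → S} (h : Good c G) (hm : ∀ i, Mod G (s i) ∧ Mod G (star (s i)))
    (l : List S) (T : S →ₗ[ℂ] S) (hT : ∀ x, T x = z * G (1 :: x :: l)) :
    CB S T (c (l.length + 2) * np l) := by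
  intro J I _ _ x hx ζ ξ
  classical
  obtain ⟨t, h1, h2⟩ := exists_seq ho hs hm J
  obtain ⟨u, h3, h4⟩ := exists_seq ho hs hm I
  have hz : Mod G z := by simpa [ho _ _] using (hm 0).2.mul (hm 0).1
  let ρ : S → S := fun a => ∑ i, u i * a * star (u i)
  have h5 : ∀ a i, ρ a * u i = u i * a := fun a i => by
    simp only [ρ, Finset.sum_mul, mul_assoc, h3 _ _]
    simp [← (hs.zc _).eq, ← mul_assoc, (h4 i).1]
  have h6 : ∀ (l : List S) p pre a i, G (p :: (pre ++ a :: l.map ρ)) * u i =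
      G (p :: (pre ++ a * u i :: l)) := fun l => by
    induction l with
    | nil => exact fun p pre a i => (h.right p pre a (u i)).symm
    | cons b l ih =>
      intro p pre a i
      have := ih p (pre ++ [a]) (ρ b) i
      simp only [List.append_assoc, List.cons_append, List.nil_append, h5] at this
      rw [List.map_cons, this]
      exact ((h4 i).2.1 (p :: pre) a b l).symm
  set X := ∑ j, ∑ i, t j * x j i * star (u i) with hX
  have h7 : ∀ j i, T (x j i) = star (t j) * G (1 :: X :: l.map ρ) * u i := fun j i => by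
    have a1 := (h2 j).2.2 [] 1 X (l.map ρ)
    have a2 := h6 l 1 [] (star (t j) * X) i
    have a3 := hz [] 1 (x j i) l
    simp only [List.nil_append, one_mul] at a1 a2 a3
    rw [← h.left, mul_one, a1, a2, h1.sandwich h3 hs.zc hs.z2, ← a3, hT, ← h.left, mul_one]
  have h8 : ‖X‖ ≤ 1 := norm_le_of_sq _ zero_le_one fun η => by
    simp only [hX, sum_app, mul_app, ← map_sum, one_pow, one_mul]
    exact (h1.row hs.nz _).trans ((hx _).trans (h3.col hs.nz η))
  have h9 : np (l.map ρ) ≤ np l := by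
    clear h7 hT
    induction l with
    | nil => exact le_rfl
    | cons b l ih =>
      rw [List.map_cons, np_cons, np_cons]
      exact mul_le_mul (h3.diag h3 hs.nz (fun _ => b) (norm_nonneg _) fun _ => le_rfl) ih
        (np_nonneg _) (norm_nonneg _)
  have h10 : ‖G (1 :: X :: l.map ρ)‖ ≤ c (l.length + 2) * np l := (h.bd.2 _).trans (by
    have := h.bd.1 (l.length + 2)
    have := np_nonneg (l.map ρ)
    simp only [np_cons, List.length_cons, List.length_map]
    calc _ ≤ c (l.length + 2) * (1 * (1 * np l)) := by gcongr; exact norm_one_le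
      _ = _ := by ring)
  simp only [h7, mul_app, inner_star_left, ← inner_sum, ← map_sum, ← sum_inner]
  refine (norm_inner_le _ _ _).trans ?_
  rw [mul_left_comm]
  have := (norm_nonneg _).trans h10
  gcongr
  · exact Real.le_sqrt_of_sq_le (h1.row hs.nz _)
  · exact Real.le_sqrt_of_sq_le (h3.row hs.nz _)

theorem norm_cav_le {T : S →ₗ[ℂ] S} {c : ℝ} (hc : 0 ≤ c) (h : CB S T c) {m : List S}
    (hm : (m.map fun a => star a * a).sum = 1) : ‖cav m T 1‖ ≤ c := by
  have h1 : ∀ ξ : K, ∑ j : Fin m.length, ‖(m[j.1] : K →L[ℂ] K) ξ‖ ^ 2 = ‖ξ‖ ^ 2 := fun ξ => by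
    have := congrArg (fun a : S => ⟪ξ, (a : K →L[ℂ] K) ξ⟫_ℂ) hm
    simp only [← Fin.sum_univ_fun_getElem, sum_app, inner_sum, mul_app, inner_star_left,
      OneMemClass.coe_one, one_apply_eq_self, inner_self_eq_norm_sq_to_K] at this
    exact_mod_cast this
  refine norm_le_of_sq _ hc fun ξ => ?_
  have h2 := fun η : K => h (Fin m.length) Unit (fun j _ => m[j.1]) (fun ξ => by simp [h1])
    (fun j => (m[j.1] : K →L[ℂ] K) η) fun _ => ξ
  have h3 : ∀ η, ⟪η, ((cav m T 1 : S) : K →L[ℂ] K) ξ⟫_ℂ = ∑ j : Fin m.length,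
      ⟪(m[j.1] : K →L[ℂ] K) η, (T m[j.1] : K →L[ℂ] K) ξ⟫_ℂ := fun η => by
    simp only [cav, ← Fin.sum_univ_fun_getElem, sum_app, inner_sum, mul_app, inner_star_left,
      mul_one]
  simp only [Finset.univ_unique, Finset.sum_singleton, h1, ← h3, Real.sqrt_sq (norm_nonneg _)] at h2
  have h4 := h2 (((cav m T 1 : S) : K →L[ℂ] K) ξ)
  rw [inner_self_eq_norm_sq_to_K] at h4
  simp only [norm_pow, RCLike.norm_ofReal, abs_norm] at h4
  nlinarith [sq_nonneg (‖((cav m T 1 : S) : K →L[ℂ] K) ξ‖ - c * ‖ξ‖)]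

theorem sol_typeP (hS : ∀ a, a ∈ S ↔ a ∈ C.centralizer) (hm : CMean S) {z : S}
    (hz : IsCP C.centralizer z) (hP : TypeP C.centralizer (z : K →L[ℂ] K)) {c : ℕ → ℝ}
    {G : List S → S} (h : Good c G) (hG : ∀ a l, dl a l G = 0) :
    Sol (fun k => (k + 2) * 2 ^ k * c (k + 1)) z G := by
  obtain ⟨s, ho, hs⟩ := cu_of_typeP hS hz hP
  obtain ⟨H, G', h1, h2, h3, h4, h5⟩ := exists_mod hS hs h hG
  have h6 := h2.smul hs.zc hs.nz
  obtain ⟨l, hl, h7, h8⟩ := hm
  have hu : (Ultrafilter.of l : Filter _) ≤ l := Ultrafilter.of_le l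
  have h9 : ∀ (m : List S) (T : S → S) b, tav (m.map fun a => (star a, a)) T b = cav m T b :=
    fun m T b => by simp [tav, cav, Function.comp_def]
  have h10 := fun t => cb_of_mod ho hs h2 h5 t (IsLinearMap.mk' _ (h6.lin [1] t)) fun _ => rfl
  obtain ⟨G'', h11, h12⟩ := contract hS (Ultrafilter.of l) (fun m => m.map fun a => (star a, a))
    h6.lin h6.left h6.right (fun a l => by rw [map_smul, h3, smul_zero]) (p := 1)
    ((h7.filter_mono hu).mono fun m hm => by rw [ls_map]; exact hm)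
    (c := fun k => 2 ^ (k + 1) * c (k + 1)) (fun k => h2.bd.1 _)
    (fun t => (h7.filter_mono hu).mono fun m hm => by
      rw [h9]
      exact norm_cav_le (mul_nonneg (h2.bd.1 _) (np_nonneg _)) (h10 t) hm)
    (fun t b ξ η => by
      simp only [h9, ZeroMemClass.coe_zero, zero_apply, inner_zero_right]
      exact (h8 _ _ (h10 t) b ξ η).mono_left hu)
  refine Sol.mono ⟨z • H + G'', (h1.smul hs.zc hs.nz).add h11, fun a b t => ?_⟩
    fun k => le_of_eq (by ring)
  rw [map_add, map_smul, h12, mul_one, ← h4, mul_add]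
  rfl

end Crest.Agent.H8.KR
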