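import Crest.Agent.H8.KR.A5

/-! Gluing over the centre and the assembly of the Kadison–Ringrose cohomology theorem. -/

set_option autoImplicit false
set_option linter.unusedSectionVars false

open scoped InnerProductSpace
open Filter Topology Crest.Agent.H1KR Crest.Agent.H2.KS

namespace Crest.Agent.H8.KR

variable {K : Type*} [NormedAddCommGroup K] [InnerProductSpace ℂ K] [CompleteSpace K]
  {C : Set (K →L[ℂ] K)} {S : StarSubalgebra ℂ (K →L[ℂ] K)}

theorem norm_central_le {z : S} (hz : IsStarProjection z) (hzc : ∀ a, Commute z a) {x y : S} {M : ℝ}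
    (hx : ‖x‖ ≤ M) (hy : ‖y‖ ≤ M) : ‖z * x + (1 - z) * y‖ ≤ M := by
  have h1 := hz.isIdempotentElem.eq
  have h2 := hz.isSelfAdjoint.star_eq
  have h3 : ∀ ξ η : K, ‖(z : K →L[ℂ] K) ξ + ((1 - z : S) : K →L[ℂ] K) η‖ ^ 2 =
      ‖(z : K →L[ℂ] K) ξ‖ ^ 2 + ‖((1 - z : S) : K →L[ℂ] K) η‖ ^ 2 := fun ξ η => by
    have : ⟪(z : K →L[ℂ] K) ξ, ((1 - z : S) : K →L[ℂ] K) η⟫_ℂ = 0 := by
      rw [← inner_star_left, ← mul_app, h2, mul_sub, h1, mul_one, sub_self]; simp
    simp only [sq]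
    exact norm_add_sq_eq_norm_sq_add_norm_sq_of_inner_eq_zero _ _ this
  have hM := (norm_nonneg _).trans hx
  refine norm_le_of_sq _ hM fun ξ => ?_
  have h4 := h3 ξ ξ
  have h5 : (z : K →L[ℂ] K) ξ + ((1 - z : S) : K →L[ℂ] K) ξ = ξ := by simp
  have h6 : ∀ {a : S}, ‖a‖ ≤ M → ∀ η, ‖(a : K →L[ℂ] K) η‖ ^ 2 ≤ M ^ 2 * ‖η‖ ^ 2 := fun ha η => by
    rw [← mul_pow]
    gcongr
    exact (app_le _ _).trans (by gcongr)
  rw [h5] at h4
  rw [AddMemClass.coe_add, add_apply, mul_app, mul_app, h3, h4, mul_add, ← mul_app, ← mul_app,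
    (hzc x).eq, ((Commute.one_left y).sub_left (hzc y)).eq]
  exact add_le_add (h6 hx _) (h6 hy _)

theorem glue (hC : ∀ c ∈ C, star c ∈ C) (hS : ∀ a, a ∈ S ↔ a ∈ C.centralizer) {c : ℕ → ℝ}
    (hc : ∀ k, 0 ≤ c k) {G : List S → S}
    (h : ∀ z₀, IsCP C.centralizer z₀ → z₀ ≠ 0 → ∃ z : S, IsCP C.centralizer z ∧ z ≠ 0 ∧
      z₀ * z = z ∧ Sol c z G) : Sol c 1 G := by
  let ι := {z : S // IsCP C.centralizer z ∧ Sol c z G}
  have hzc : ∀ z : ι, ∀ a, Commute z.1 a := fun z a => Subtype.ext (z.2.1.comm a ((hS _).1 a.2))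
  have hzp : ∀ z : ι, IsStarProjection z.1 := fun z =>
    ⟨Subtype.ext z.2.1.proj.isIdempotentElem, Subtype.ext z.2.1.proj.isSelfAdjoint⟩
  have hcp : ∀ z : S, IsStarProjection z → (∀ a, Commute z a) → IsCP C.centralizer z :=
    fun z h1 h2 => ⟨(hS _).1 z.2, h1.map S.subtype, fun a ha =>
      congrArg Subtype.val (h2 ⟨a, (hS _).2 ha⟩).eq⟩
  have hdir : ∀ z z' : ι, ∃ w : ι, w.1 * z.1 = z.1 ∧ w.1 * z'.1 = z'.1 := by
    intro z z'
    obtain ⟨G₁, h1, h2⟩ := z.2.2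
    obtain ⟨G₂, h3, h4⟩ := z'.2.2
    have a1 := (hzp z).isIdempotentElem.eq
    have a2 := (hzp z').isIdempotentElem.eq
    have a3 : ∀ a, Commute (1 - z.1) a := fun a => (Commute.one_left a).sub_left (hzc z a)
    have a4 := (h1.smul (hzc z) (hzp z).norm_le).add (h3.smul a3 (hzp z).one_sub.norm_le)
    refine ⟨⟨z.1 + (1 - z.1) * z'.1, hcp _ ((hzp z).add ((hzp z).one_sub.mul (hzp z') (a3 _)) ?_)
      fun a => (hzc z a).add_left ((a3 a).mul_left (hzc z' a)), z.1 • G₁ + (1 - z.1) • G₂,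
      ⟨a4.lin, a4.left, a4.right, hc, fun l => norm_central_le (hzp z) (hzc z) (h1.bd.2 l)
        (h3.bd.2 l)⟩, fun a b l => ?_⟩, ?_, ?_⟩
    · rw [← mul_assoc, mul_sub, a1, mul_one, sub_self, zero_mul]
    · simp only [map_add, map_smul, h2, h4, smul_eq_mul, ← mul_assoc, a1, add_mul]
    · rw [add_mul, mul_assoc, ← (hzc z z'.1).eq, ← mul_assoc, sub_mul 1 z.1 z.1, a1, one_mul,
        sub_self, zero_mul, add_zero]
    · rw [add_mul, mul_assoc, a2, ← add_mul, add_sub_cancel, one_mul]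
  have : Nonempty ι := ⟨⟨0, hcp 0 (IsStarProjection.zero _) Commute.zero_left, 0,
    ⟨fun _ _ => lin_zero, fun _ _ _ => by simp, fun _ _ _ _ => by simp, hc,
      fun l => by simpa using mul_nonneg (hc _) (np_nonneg l)⟩, fun _ _ _ => by simp⟩⟩
  have hne : (⨅ z : ι, 𝓟 {w : ι | w.1 * z.1 = z.1}).NeBot := by
    refine iInf_neBot_of_directed (fun z z' => ?_) fun z => principal_neBot_iff.2
      ⟨z, (hzp z).isIdempotentElem.eq⟩
    obtain ⟨w, h1, h2⟩ := hdir z z'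
    exact ⟨w, principal_mono.2 fun v (hv : _ = _) => show _ = _ by rw [← h1, ← mul_assoc, hv],
      principal_mono.2 fun v (hv : _ = _) => show _ = _ by rw [← h2, ← mul_assoc, hv]⟩
  let 𝒰 := Ultrafilter.of (⨅ z : ι, 𝓟 {w : ι | w.1 * z.1 = z.1})
  have hU : ∀ z : ι, ∀ᶠ w : ι in 𝒰, w.1 * z.1 = z.1 := fun z =>
    Ultrafilter.of_le _ (mem_iInf_of_mem z (mem_principal_self _))
  choose F h1 h2 using fun z : ι => z.2.2
  obtain ⟨G', h3, h4⟩ := exists_good hS 𝒰 (fun z => (h1 z).lin) (fun z => (h1 z).left)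
    (fun z => (h1 z).right) hc fun l => .of_forall fun z => (h1 z).bd.2 l
  let W : Submodule ℂ K := ⨅ z : ι, (z.1 : K →L[ℂ] K).ker
  have hW : ∀ ξ, ξ ∈ W ↔ ∀ z : ι, (z.1 : K →L[ℂ] K) ξ = 0 := fun ξ => by simp [W]
  have : CompleteSpace W := by
    have : IsClosed (W : Set K) := by
      rw [Submodule.coe_iInf]
      exact isClosed_iInter fun z => ContinuousLinearMap.isClosed_ker _
    exact this.completeSpace_coe
  have h5 : ∀ a : K →L[ℂ] K, (∀ z : ι, Commute a z.1) → (∀ z : ι, Commute (star a) z.1) →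
      a * W.starProjection = W.starProjection * a := fun a ha ha' => by
    have key : ∀ {a : K →L[ℂ] K}, (∀ z : ι, Commute a z.1) → ∀ ξ ∈ W, a ξ ∈ W := fun ha ξ hξ =>
      (hW _).2 fun z => by
        rw [← mul_apply_eq_comp, ← (ha z).eq, mul_apply_eq_comp,
          (hW _).1 hξ, map_zero]
    ext ξ
    refine (Submodule.eq_starProjection_of_mem_of_inner_eq_zero
      (key ha _ (W.starProjection_apply_mem ξ)) fun w hw => ?_).symm
    change ⟪a ξ - a _, w⟫_ℂ = 0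
    rw [← map_sub, ← ContinuousLinearMap.adjoint_inner_right]
    exact W.starProjection_inner_eq_zero ξ _ (key ha' w hw)
  have h6 : W.starProjection = 0 := by
    by_contra h6
    obtain ⟨z, a1, a2, a3, a4⟩ := h W.starProjection ⟨fun c hc => h5 c
      (fun z => z.2.1.mem c hc) fun z => z.2.1.mem _ (hC c hc), isStarProjection_starProjection,
      fun a ha => (h5 a (fun z => (z.2.1.comm a ha).symm) fun z =>
        (z.2.1.comm _ (H9.KB.star_mem hC ha)).symm).symm⟩ h6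
    refine a2 (Subtype.ext (ContinuousLinearMap.ext fun ξ => ?_))
    have := (hW _).1 (W.starProjection_apply_mem ((z : K →L[ℂ] K) ξ)) ⟨z, a1, a4⟩
    rwa [← mul_apply_eq_comp _ _ ξ, a3, ← mul_apply_eq_comp,
      a1.proj.isIdempotentElem.eq] at this
  refine ⟨G', h3, fun a b l => ?_⟩
  have h7 : ∀ z : ι, z.1 * (dl a (b :: l) G' - G (a :: b :: l)) = 0 := fun z => by
    rw [mul_sub, sub_eq_zero]
    refine ((lim_dl h4 a (b :: l)).mul_left z.1).unique ((Lim.const _).congr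
      ((hU z).mono fun w hw => ?_))
    rw [h2, ← mul_assoc, (hzc z w.1).eq, hw]
  rw [one_mul, ← sub_eq_zero]
  refine Subtype.ext (ContinuousLinearMap.ext fun ξ => ?_)
  have h8 := W.starProjection_eq_self_iff.2 ((hW _).2 fun z =>
    congrArg (fun a : S => (a : K →L[ℂ] K) ξ) (h7 z))
  rw [h6] at h8
  exact h8.symm

theorem sol_one (hC : ∀ c ∈ C, star c ∈ C) (hS : ∀ a, a ∈ S ↔ a ∈ C.centralizer)
    (hT : Trichotomy C) (hm : CMean S)
    (hI : ∀ z : S, IsCP C.centralizer z → TypeI C.centralizer (z : K →L[ℂ] K) → ZMean S z)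
    (hII : ∀ z : S, IsCP C.centralizer z → TypeII C.centralizer (z : K →L[ℂ] K) → ZMean S z)
    {c : ℕ → ℝ} {G : List S → S} (h : Good c G) (hG : ∀ a l, dl a l G = 0) :
    Sol (fun k => (k + 2) * 2 ^ k * c (k + 1)) 1 G := by
  refine glue hC hS (fun k => by have := h.bd.1 (k + 1); positivity) fun z₀ h1 h2 => ?_
  obtain ⟨z, h3, h4, h5, h6⟩ := hT z₀ h1 h2
  lift z to S using (hS _).2 h3.mem
  refine ⟨z, h3, fun h => h4 (congrArg Subtype.val h), h5, ?_⟩
  have h7 : ZMean S z → Sol (fun k => (k + 2) * 2 ^ k * c (k + 1)) z G := fun h7 =>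
    (sol_zmean hS h3 h7 h hG).mono fun k => le_mul_of_one_le_left (h.bd.1 _)
      (one_le_mul_of_one_le_of_one_le (by have := Nat.cast_nonneg (α := ℝ) k; linarith)
        (one_le_pow₀ one_le_two))
  rcases h6 with h6 | h6 | h6
  · exact sol_typeP hS hm h3 h6 h hG
  · exact h7 (hI z h3 h6)
  · exact h7 (hII z h3 h6)

/-- The assembly in the standing setting. -/
theorem exists_primitive (hC : ∀ c ∈ C, star c ∈ C) (hS : ∀ a, a ∈ S ↔ a ∈ C.centralizer)
    (hT : Trichotomy C) (hm : CMean S)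
    (hI : ∀ z : S, IsCP C.centralizer z → TypeI C.centralizer (z : K →L[ℂ] K) → ZMean S z)
    (hII : ∀ z : S, IsCP C.centralizer z → TypeII C.centralizer (z : K →L[ℂ] K) → ZMean S z)
    (n : ℕ) (f : ContinuousMultilinearMap ℂ (fun _ : Fin (n + 1) => S) S)
    (hf : ∀ a : Fin (n + 2) → S, Crest.OpAlg.hochschildDiff f a = 0) :
    ∃ g : ContinuousMultilinearMap ℂ (fun _ : Fin n => S) S,
      ∀ a : Fin (n + 1) → S, Crest.OpAlg.hochschildDiff g a = f a := by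
  obtain ⟨G, h1, h2⟩ := sol_one hC hS hT hm hI hII
    ⟨ofC_lin f.toMultilinearMap, ofC_left _, ofC_right _, ofC_bd f⟩ (ofC_cocycle _ hf)
  obtain ⟨g, hg⟩ := exists_cochain h1.lin h1.bd n
  refine ⟨g, fun a => ?_⟩
  have h3 := h2 1 (a 0) (List.ofFn (fun i : Fin n => a i.succ) ++ [1])
  rw [← List.cons_append, ← List.ofFn_succ, one_mul] at h3
  rw [show (g : (Fin n → S) → S) = _ from funext hg, hoch_eq h1.left h1.right, h3]
  exact (ofC_ofFn _ _ _ _).trans (by rw [one_mul, mul_one]; rfl)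

/-- The statement S0161 from the four structural inputs, each in the standing setting. -/
theorem s0161_of
    (hT : ∀ C : Set (K →L[ℂ] K), (∀ c ∈ C, star c ∈ C) → Trichotomy C)
    (hm : ∀ (C : Set (K →L[ℂ] K)) (S : StarSubalgebra ℂ (K →L[ℂ] K)), (∀ c ∈ C, star c ∈ C) →
      (∀ a, a ∈ S ↔ a ∈ C.centralizer) → CMean S)
    (hI : ∀ (C : Set (K →L[ℂ] K)) (S : StarSubalgebra ℂ (K →L[ℂ] K)), (∀ c ∈ C, star c ∈ C) →
      (∀ a, a ∈ S ↔ a ∈ C.centralizer) →
      ∀ z : S, IsCP C.centralizer z → TypeI C.centralizer (z : K →L[ℂ] K) → ZMean S z)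
    (hII : ∀ (C : Set (K →L[ℂ] K)) (S : StarSubalgebra ℂ (K →L[ℂ] K)), (∀ c ∈ C, star c ∈ C) →
      (∀ a, a ∈ S ↔ a ∈ C.centralizer) →
      ∀ z : S, IsCP C.centralizer z → TypeII C.centralizer (z : K →L[ℂ] K) → ZMean S z)
    (M : VonNeumannAlgebra K) (n : ℕ)
    (f : ContinuousMultilinearMap ℂ (fun _ : Fin (n + 1) => M.toStarSubalgebra) M.toStarSubalgebra)
    (hf : ∀ a : Fin (n + 2) → M.toStarSubalgebra, Crest.OpAlg.hochschildDiff f a = 0) :
    ∃ g : ContinuousMultilinearMap ℂ (fun _ : Fin n => M.toStarSubalgebra) M.toStarSubalgebra,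
      ∀ a : Fin (n + 1) → M.toStarSubalgebra, Crest.OpAlg.hochschildDiff g a = f a := by
  have hC : ∀ c ∈ (M.commutant : Set (K →L[ℂ] K)), star c ∈ (M.commutant : Set (K →L[ℂ] K)) :=
    fun c hc => star_mem hc
  have hS : ∀ a, a ∈ M.toStarSubalgebra ↔ a ∈ (M.commutant : Set (K →L[ℂ] K)).centralizer :=
    fun a => by rw [← VonNeumannAlgebra.coe_commutant, VonNeumannAlgebra.commutant_commutant]; rfl
  exact exists_primitive hC hS (hT _ hC) (hm _ _ hC hS) (hI _ _ hC hS) (hII _ _ hC hS) n f hf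

end Crest.Agent.H8.KR
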